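import Vale.Agent.P032.Net.H672.Net

/-!
# P032: the network of two-pair centres with palettes, abstract form

`E z v`: `v` is a clean end of an exact two-coloured arc of the circle about `z`.
`A z v v'`: `v`, `v'` are the two ends of one exact arc of the circle about `z`.
`o z v = 1` iff the arc of the circle about `z` at its end `v` is `z + (v - z) e^{-it}`,
`0 < t < l`; `inn z v` is the colour of the pair of that arc which is inside the disc about `z`
near `v`.
-/

open Complex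

set_option linter.dupNamespace false

namespace Vale.Agent.P032.Net.H672

/-- an end whose complementary type occurs on the same circle -/
def Full (T : ℂ → Set (Fin 6)) (E : ℂ → ℂ → Prop) (z v : ℂ) : Prop :=
  E z v ∧ ∃ q, E z q ∧ T q = (T v)ᶜ

/-- the facts on palettes and arcs at the two-pair centres -/
structure DNet (T : ℂ → Set (Fin 6)) (E : ℂ → ℂ → Prop) (A : ℂ → ℂ → ℂ → Prop)
    (o : ℂ → ℂ → ℝ) (inn : ℂ → ℂ → Fin 6) : Prop where
  net : ∀ X : Set (Fin 6), Net (fun z v => E z v ∧ T v = X) (fun z q => E z q ∧ T q = Xᶜ)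
  card_z : ∀ {z v}, E z v → (T z).ncard = 4
  card_v : ∀ {z v}, E z v → (T v).ncard = 3
  card_i : ∀ {z v}, E z v → (T v ∩ T z).ncard = 2
  cov : ∀ {z v q}, E z v → E z q → T q = (T v)ᶜ → ∀ i, i ∈ T z ∨ i ∈ T (v + q - z)
  ori : ∀ {z v}, E z v → o z v = 1 ∨ o z v = -1
  inn_mem : ∀ {z v}, E z v → inn z v ∈ T v ∩ T z
  /-- the arc of `z` at `v` is inside the disc about `w = v + q - z` iff the inner colour of the
  arc of `w` at `v` is the colour common to `z` and `w` -/
  LP1 : ∀ {z v q}, E z v → E z q → T q = (T v)ᶜ →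
    (0 < o z v * dt (z - v) (q - z) ↔ inn (v + q - z) v ∈ T z)
  /-- ends of one pair on both sides of a line through an end of the other pair -/
  LP2 : ∀ {z q v v'}, Full T E z q → Full T E z v → Full T E z v' → T v ∩ T z = T z \ T q →
    T v' ∩ T z = T z \ T q →
    (inn z v = inn z v' ↔ 0 < dt (q - z) (v - z) * dt (q - z) (v' - z))
  /-- the third edge at a vertex -/
  LP3 : ∀ {z v q c p}, E z v → E z q → T q = (T v)ᶜ → E c v → E c p → T p = (T v)ᶜ →
    c ≠ z → c ≠ v + q - z → ∃ a b : ℝ, 0 ≤ a ∧ 0 ≤ b ∧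
      ((o c v : ℝ) : ℂ) * (c - v) + (a : ℂ) * (((o z v : ℝ) : ℂ) * (z - v))
        + (b : ℂ) * (((o (v + q - z) v : ℝ) : ℂ) * (q - z)) = 0
  arc_ex : ∀ {z v}, Full T E z v → ∃ v', A z v v'
  arc_end : ∀ {z v v'}, Full T E z v → A z v v' → E z v'
  arc_pair : ∀ {z v v'}, Full T E z v → A z v v' → T v' ∩ T z = T v ∩ T z
  arc_len : ∀ {z v v'}, Full T E z v → A z v v' → ∃ l : ℝ, 0 < l ∧ l ≤ Real.pi / 3 ∧
    v' - z = (v - z) * Complex.exp (-((o z v * l : ℝ) : ℂ) * I)
  arc_uniq : ∀ {z v v' v''}, Full T E z v → A z v v' → A z v v'' → v' = v''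
  arc_symm : ∀ {z v v'}, Full T E z v → Full T E z v' → A z v v' → A z v' v
  arc_ori : ∀ {z v v'}, Full T E z v → Full T E z v' → A z v v' → o z v' = - o z v
  arc_inn : ∀ {z v v'}, Full T E z v → Full T E z v' → A z v v' → inn z v' = inn z v
  /-- points with the palette of an end are ends -/
  auto : ∀ {z v q m}, E z v → E z q → T q = (T v)ᶜ → dist m z = 1 → T m = T v → E z m
  /-- the common points of two circles whose centres have all six colours -/
  common : ∀ {w v q w' v' q' m}, E w v → E w q → T q = (T v)ᶜ → E w' v' → E w' q' →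
    T q' = (T v')ᶜ → w ≠ w' → (∀ i, i ∈ T w ∨ i ∈ T w') → dist m w = 1 → dist m w' = 1 →
    w + w' ≠ 2 * m → (T v ∩ T w ∩ T w').ncard = 1 → (T v' ∩ T w' ∩ T w).ncard = 1 →
    (T m).ncard = 3 ∧
      (T m ∩ T w = T v ∩ T w ∨ T m ∩ T w = T q ∩ T w) ∧
      (T m ∩ T w' = T v' ∩ T w' ∨ T m ∩ T w' = T q' ∩ T w')
  /-- Lemma X -/
  lemX : ∀ {z u p r t}, E z u → dist p u = 1 → dist p r = 1 → t ∈ T r →
    T p ⊆ insert t (T u) → r = u ∨ r + u = 2 * p

end Vale.Agent.P032.Net.H672
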