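import Vale.Agent.P032.Net.H672.DNet

/-!
# P032: there is no network of two-pair centres (394's page, abstract form)
-/

open Complex Set

set_option linter.dupNamespace false

namespace Vale.Agent.P032.Net.H672

section net

variable {tE cE : ℂ → ℂ → Prop}

theorem Net.opp_sides (N : Net tE cE) {M v q q' : ℂ} (hv : tE M v) (hq : cE M q)
    (hq' : cE M q') (hne : q ≠ q') : dt (v - M) (q - M) * dt (v - M) (q' - M) < 0 := by
  obtain ⟨β, γ, hβ, hγ, h⟩ := N.between hv hq hq' hne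
  have hh : (1 : ℝ) * (v - M) + (β : ℂ) * (q - M) + (γ : ℂ) * (q' - M) = 0 := by
    push_cast
    linear_combination -h
  have h1 := dt_lin (v - M) hh
  rw [dt_self] at h1
  have e0 := N.dt_ne hv hq
  set X := dt (v - M) (q - M)
  set Y := dt (v - M) (q' - M)
  have hY : Y = -(β / γ) * X := by field_simp; linarith
  rw [hY]
  have : X * (-(β / γ) * X) = -((β / γ) * X ^ 2) := by ring
  rw [this, neg_lt_zero]
  have hX : 0 < X ^ 2 := by positivity
  positivity

theorem Net.dt_qq (N : Net tE cE) {M v q q' : ℂ} (hv : tE M v) (hq : cE M q)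
    (hq' : cE M q') (hne : q ≠ q') : dt (q - M) (q' - M) ≠ 0 := by
  obtain ⟨β, γ, hβ, hγ, h⟩ := N.between hv hq hq' hne
  have hh : (1 : ℝ) * (v - M) + (β : ℂ) * (q - M) + (γ : ℂ) * (q' - M) = 0 := by
    push_cast
    linear_combination -h
  have h1 := dt_lin (q - M) hh
  rw [dt_self] at h1
  have e0 := N.dt_ne hv hq
  intro hc
  rw [hc] at h1
  apply e0
  rw [dt_comm (q - M) (v - M)]
  linarith

end net

section sets

/-- a set of three colours, two of them in `K` -/
theorem mem_of_ne {X K : Set (Fin 6)} (h3 : X.ncard = 3) (h2 : (X ∩ K).ncard = 2) {i : Fin 6}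
    (hi : i ∈ X) (hiK : i ∉ K) {j : Fin 6} (hj : j ∈ X) (hji : j ≠ i) : j ∈ K := by
  have hsub : X ∩ K ⊆ X \ {i} := fun x hx => ⟨hx.1, fun h => hiK (by
    rw [mem_singleton_iff] at h; rw [← h]; exact hx.2)⟩
  have hc : (X \ {i}).ncard = 2 := by
    have := ncard_sdiff_singleton_add_one hi (toFinite X)
    omega
  have := eq_of_subset_of_ncard_le hsub (by omega) (toFinite _)
  have hj' : j ∈ X \ {i} := ⟨hj, hji⟩
  rw [← this] at hj'
  exact hj'.2

theorem exists_out {X K : Set (Fin 6)} (h3 : X.ncard = 3) (h2 : (X ∩ K).ncard = 2) :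
    ∃ e, e ∈ X ∧ e ∉ K := by
  by_contra h
  push Not at h
  have : X ∩ K = X := inter_eq_left.2 h
  rw [this] at h2
  omega

theorem exists_in {X K : Set (Fin 6)} (h2 : (X ∩ K).ncard = 2) : ∃ i, i ∈ X ∧ i ∈ K := by
  have : (X ∩ K).Nonempty := by
    rw [nonempty_iff_ne_empty]
    intro h
    rw [h] at h2
    simp at h2
  exact this

theorem compl_three {X : Set (Fin 6)} (h3 : X.ncard = 3) : (Xᶜ).ncard = 3 := by
  have := ncard_add_ncard_compl X
  rw [Nat.card_eq_fintype_card, Fintype.card_fin] at this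
  omega

theorem inter_one {X K K' : Set (Fin 6)} (h3 : X.ncard = 3) (h2 : (X ∩ K).ncard = 2)
    (h2' : (X ∩ K').ncard = 2) (h : ∀ i, i ∈ K ∨ i ∈ K') : (X ∩ K ∩ K').ncard = 1 := by
  have h1 : (X ∩ K) ∪ (X ∩ K') = X := by
    ext i
    constructor
    · rintro (hi | hi) <;> exact hi.1
    · intro hi
      rcases h i with h' | h'
      · exact Or.inl ⟨hi, h'⟩
      · exact Or.inr ⟨hi, h'⟩
  have h4 : (X ∩ K) ∩ (X ∩ K') = X ∩ K ∩ K' := by
    ext i; simp only [mem_inter_iff]; tauto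
  have := ncard_union_add_ncard_inter (X ∩ K) (X ∩ K')
  rw [h1, h4] at this
  omega

theorem inter_pair {K K' : Set (Fin 6)} {e f : Fin 6} (h4 : K.ncard = 4) (h4' : K'.ncard = 4)
    (h : ∀ i, i ∈ K ∨ i ∈ K') (he : e ∈ K) (he' : e ∈ K') (hf : f ∈ K) (hf' : f ∈ K')
    (hef : e ≠ f) {i : Fin 6} (hi : i ∈ K) (hi' : i ∈ K') : i = e ∨ i = f := by
  have h1 : K ∪ K' = univ := by
    ext i; simp only [mem_union, mem_univ, iff_true]; exact h i
  have h2 := ncard_union_add_ncard_inter K K'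
  rw [h1, ncard_univ, Nat.card_eq_fintype_card, Fintype.card_fin] at h2
  have h3 : ({e, f} : Set (Fin 6)) = K ∩ K' := by
    have hsub : ({e, f} : Set (Fin 6)) ⊆ K ∩ K' := by
      rintro j (rfl | rfl)
      · exact ⟨he, he'⟩
      · exact ⟨hf, hf'⟩
    exact eq_of_subset_of_ncard_le hsub (by rw [ncard_pair hef]; omega) (toFinite _)
  have h5 : i ∈ K ∩ K' := ⟨hi, hi'⟩
  rw [← h3] at h5
  simpa using h5

/-- change of the third colour -/
theorem type_swap {X X' K : Set (Fin 6)} (hX : X.ncard = 3) (hX' : X'.ncard = 3)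
    (hK : (X ∩ K).ncard = 2) (hK' : (Xᶜ ∩ K).ncard = 2) (he : X' ∩ K = X ∩ K) (hne : X' ≠ X) :
    X' = (X ∩ K) ∪ (Xᶜ \ K) := by
  have hK2 : (X' ∩ K).ncard = 2 := by rw [he]; exact hK
  obtain ⟨g, hg, hgK⟩ := exists_out hX' hK2
  have hgX : g ∉ X := by
    intro h
    apply hne
    ext i
    constructor
    · intro hi
      by_cases hiK : i ∈ K
      · exact (he.subset ⟨hi, hiK⟩).1
      · have : i = g := by
          by_contra hig
          exact hiK (mem_of_ne hX' hK2 hg hgK hi hig)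
        rw [this]; exact h
    · intro hi
      by_cases hiK : i ∈ K
      · exact (he.superset ⟨hi, hiK⟩).1
      · have : i = g := by
          by_contra hig
          exact hiK (mem_of_ne hX hK h hgK hi hig)
        rw [this]; exact hg
  ext i
  constructor
  · intro hi
    by_cases hiK : i ∈ K
    · exact Or.inl (he.subset ⟨hi, hiK⟩)
    · have : i = g := by
        by_contra hig
        exact hiK (mem_of_ne hX' hK2 hg hgK hi hig)
      rw [this]; exact Or.inr ⟨hgX, hgK⟩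
  · rintro (hi | ⟨hi, hiK⟩)
    · exact (he.superset hi).1
    · have : i = g := by
        by_contra hig
        exact hiK (mem_of_ne (compl_three hX) hK' hgX hgK hi hig)
      rw [this]; exact hg

theorem type_swap_compl {X X' Y Y' K : Set (Fin 6)} (hX : X.ncard = 3) (hX' : X'.ncard = 3)
    (hY : Y = Xᶜ) (hY' : Y'.ncard = 3)
    (hK : (X ∩ K).ncard = 2) (hK' : (Y ∩ K).ncard = 2) (he : X' ∩ K = X ∩ K) (hne : X' ≠ X)
    (he' : Y' ∩ K = Y ∩ K) (hne' : Y' ≠ Y) : Y' = X'ᶜ := by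
  subst hY
  rw [type_swap hX hX' hK hK' he hne,
    type_swap (compl_three hX) hY' hK' (by rw [compl_compl]; exact hK) he' hne', compl_compl]
  ext i
  simp only [mem_union, mem_inter_iff, mem_compl_iff, mem_sdiff]
  tauto

end sets

/-- two common points of two unit circles -/
theorem two_points {w w' : ℂ} (hne : w ≠ w') (hd : dist w w' < 2) :
    ∃ p p' : ℂ, p ≠ p' ∧ p + p' = w + w' ∧ dist p w = 1 ∧ dist p w' = 1 ∧
      dist p' w = 1 ∧ dist p' w' = 1 := by
  set d : ℂ := w' - w with hdd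
  have hd0 : d ≠ 0 := sub_ne_zero.2 hne.symm
  have hn : 0 < ‖d‖ := norm_pos_iff.2 hd0
  have hn2 : ‖d‖ < 2 := by
    rw [dist_comm, dist_eq_norm] at hd
    exact hd
  set t : ℝ := Real.sqrt ((1 - ‖d‖ ^ 2 / 4) / ‖d‖ ^ 2) with ht
  have hpos : 0 < (1 - ‖d‖ ^ 2 / 4) / ‖d‖ ^ 2 := by
    apply div_pos _ (by positivity)
    nlinarith
  have ht0 : 0 < t := Real.sqrt_pos.2 hpos
  have ht2 : ‖d‖ ^ 2 * t ^ 2 = 1 - ‖d‖ ^ 2 / 4 := by
    rw [ht, Real.sq_sqrt hpos.le]
    field_simp
  have key : ∀ s : ℝ, s ^ 2 = t ^ 2 → ∀ h : ℝ, h ^ 2 = 1 / 4 →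
      ‖d * ((h : ℂ) + (s : ℂ) * I)‖ = 1 := by
    intro s hs h hh
    rw [norm_mul]
    have h1 : ‖(h : ℂ) + (s : ℂ) * I‖ ^ 2 = h ^ 2 + s ^ 2 := by
      rw [← Complex.normSq_eq_norm_sq, Complex.normSq_add_mul_I]
    have h2 : (‖d‖ * ‖(h : ℂ) + (s : ℂ) * I‖) ^ 2 = 1 := by
      rw [mul_pow, h1, hs, hh]
      linarith
    have h3 : 0 ≤ ‖d‖ * ‖(h : ℂ) + (s : ℂ) * I‖ := by positivity
    nlinarith
  refine ⟨w + d * (((1 / 2 : ℝ) : ℂ) + (t : ℂ) * I),
    w + d * (((1 / 2 : ℝ) : ℂ) + ((-t : ℝ) : ℂ) * I), ?_, ?_, ?_, ?_, ?_, ?_⟩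
  · intro h
    have h1 := mul_left_cancel₀ hd0 (add_left_cancel h)
    have h2 := congrArg Complex.im h1
    simp at h2
    linarith
  · rw [hdd]; push_cast; ring
  · rw [dist_eq_norm, add_sub_cancel_left]
    exact key t rfl _ (by norm_num)
  · rw [dist_eq_norm]
    have : w + d * (((1 / 2 : ℝ) : ℂ) + (t : ℂ) * I) - w' =
        d * (((-1 / 2 : ℝ) : ℂ) + (t : ℂ) * I) := by rw [hdd]; push_cast; ring
    rw [this]
    exact key t rfl _ (by norm_num)
  · rw [dist_eq_norm, add_sub_cancel_left]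
    exact key (-t) (by ring) _ (by norm_num)
  · rw [dist_eq_norm]
    have : w + d * (((1 / 2 : ℝ) : ℂ) + ((-t : ℝ) : ℂ) * I) - w' =
        d * (((-1 / 2 : ℝ) : ℂ) + ((-t : ℝ) : ℂ) * I) := by rw [hdd]; push_cast; ring
    rw [this]
    exact key (-t) (by ring) _ (by norm_num)

variable {T : ℂ → Set (Fin 6)} {E : ℂ → ℂ → Prop} {A : ℂ → ℂ → ℂ → Prop}
    {o : ℂ → ℂ → ℝ} {inn : ℂ → ℂ → Fin 6}

/-- a middle centre -/
structure Mid (T : ℂ → Set (Fin 6)) (E : ℂ → ℂ → Prop) (M v q q' : ℂ) : Prop where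
  hv : E M v
  hq : E M q
  hq' : E M q'
  e : T q = (T v)ᶜ
  e' : T q' = (T v)ᶜ
  ne : q ≠ q'

theorem Mid.fv {M v q q' : ℂ} (m : Mid T E M v q q') : Full T E M v := ⟨m.hv, q, m.hq, m.e⟩

theorem Mid.fq {M v q q' : ℂ} (m : Mid T E M v q q') : Full T E M q :=
  ⟨m.hq, v, m.hv, by rw [m.e, compl_compl]⟩

theorem Mid.fq' {M v q q' : ℂ} (m : Mid T E M v q q') : Full T E M q' :=
  ⟨m.hq', v, m.hv, by rw [m.e', compl_compl]⟩

namespace DNet

variable {M v q q' : ℂ}

theorem exists_mid (D : DNet T E A o inn) {z : ℂ} (hv : E z v) (hq : E z q)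
    (e : T q = (T v)ᶜ) : ∃ M q', Mid T E M v q q' := by
  obtain ⟨M, q', hne, h1, h2, h3⟩ := (D.net (T v)).exists_middle (z := z) ⟨hv, rfl⟩ ⟨hq, e⟩
  exact ⟨M, q', h1.1, h2.1, h3.1, h2.2, h3.2, hne⟩

theorem mid_swap (m : Mid T E M v q q') : Mid T E M v q' q :=
  ⟨m.hv, m.hq', m.hq, m.e', m.e, m.ne.symm⟩

theorem uniq_v (D : DNet T E A o inn) (m : Mid T E M v q q') {p : ℂ} (h : E M p)
    (e : T p = T v) : p = v :=
  ((D.net (T v)).middle_uniq ⟨m.hv, rfl⟩ ⟨m.hq, m.e⟩ ⟨m.hq', m.e'⟩ m.ne).1 p ⟨h, e⟩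

theorem uniq_q (D : DNet T E A o inn) (m : Mid T E M v q q') {p : ℂ} (h : E M p)
    (e : T p = (T v)ᶜ) : p = q ∨ p = q' :=
  ((D.net (T v)).middle_uniq ⟨m.hv, rfl⟩ ⟨m.hq, m.e⟩ ⟨m.hq', m.e'⟩ m.ne).2 p ⟨h, e⟩

theorem mid_side (D : DNet T E A o inn) (m : Mid T E M v q q') :
    ∃ v', Mid T E (v + q - M) q v v' := by
  obtain ⟨-, v', n1, s1, -⟩ :=
    (D.net (T v)).side (M := M) ⟨m.hv, rfl⟩ ⟨m.hq, m.e⟩ ⟨m.hq', m.e'⟩ m.ne
  have w := (D.net (T v)).rh (z := M) ⟨m.hv, rfl⟩ ⟨m.hq, m.e⟩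
  refine ⟨v', w.2.1, w.1.1, s1.1, ?_, ?_, n1.symm⟩
  · rw [m.e, compl_compl]
  · rw [m.e, compl_compl, s1.2]

theorem opp (D : DNet T E A o inn) (m : Mid T E M v q q') :
    dt (v - M) (q - M) * dt (v - M) (q' - M) < 0 :=
  (D.net (T v)).opp_sides ⟨m.hv, rfl⟩ ⟨m.hq, m.e⟩ ⟨m.hq', m.e'⟩ m.ne

/-- **FLIP** -/
theorem flip_v (D : DNet T E A o inn) (m : Mid T E M v q q') :
    o (v + q - M) v = -o M v := by
  have w := (D.net (T v)).rh (z := M) ⟨m.hv, rfl⟩ ⟨m.hq, m.e⟩
  have w' := (D.net (T v)).rh (z := M) ⟨m.hv, rfl⟩ ⟨m.hq', m.e'⟩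
  have n1 : v + q' - M ≠ M := (D.net (T v)).ne_z (z := M) ⟨m.hv, rfl⟩ ⟨m.hq', m.e'⟩
  have n2 : v + q' - M ≠ v + q - M := fun h => m.ne (by linear_combination -h)
  obtain ⟨a, b, ha, hb, h⟩ := D.LP3 m.hv m.hq m.e w'.1.1 w'.2.1 m.e' n1 n2
  obtain ⟨β, γ, hβ, hγ, hg⟩ :=
    (D.net (T v)).between (M := M) ⟨m.hv, rfl⟩ ⟨m.hq, m.e⟩ ⟨m.hq', m.e'⟩ m.ne
  have hqq := (D.net (T v)).dt_qq (M := M) ⟨m.hv, rfl⟩ ⟨m.hq, m.e⟩ ⟨m.hq', m.e'⟩ m.ne
  refine (flip (g := M - v) (n := v + q - M - v) (n' := v + q' - M - v) (D.ori m.hv)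
    (D.ori w.1.1) (D.ori w'.1.1) ?_ hβ hγ hg ⟨a, b, 1, ha, hb, zero_le_one, by positivity,
      ?_⟩).1
  · rw [show v + q - M - v = q - M by ring, show v + q' - M - v = q' - M by ring]
    exact hqq
  · push_cast
    linear_combination I * h

theorem flip_q (D : DNet T E A o inn) (m : Mid T E M v q q') :
    o (v + q - M) q = -o M q := by
  obtain ⟨v', m'⟩ := D.mid_side m
  have h := D.flip_v m'
  rw [show q + v - (v + q - M) = M by ring] at h
  linarith

theorem be1 (D : DNet T E A o inn) (m : Mid T E M v q q') :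
    inn M v ∈ T (v + q - M) ↔ o M v * dt (v - M) (q - M) < 0 := by
  obtain ⟨v', m'⟩ := D.mid_side m
  have h := D.LP1 m'.hq m'.hv (by rw [m.e])
  rw [show v + q - (v + q - M) = M by ring, D.flip_v m, show v + q - M - v = q - M by ring,
    show q - (v + q - M) = -(v - M) by ring, dt_neg_right, dt_comm (v - M) (q - M)] at h
  rw [← h]
  constructor <;> intro h' <;> nlinarith

theorem be2 (D : DNet T E A o inn) (m : Mid T E M v q q') :
    inn M q ∈ T (v + q - M) ↔ 0 < o M q * dt (v - M) (q - M) := by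
  obtain ⟨v', m'⟩ := D.mid_side m
  have h := D.LP1 m'.hv m'.hq m'.e
  rw [show q + v - (v + q - M) = M by ring, D.flip_q m, show v + q - M - q = v - M by ring,
    show v - (v + q - M) = -(q - M) by ring, dt_neg_right] at h
  rw [← h]
  constructor <;> intro h' <;> nlinarith

theorem cov' (D : DNet T E A o inn) (m : Mid T E M v q q') (i : Fin 6) :
    i ∈ T M ∨ i ∈ T (v + q - M) := D.cov m.hv m.hq m.e i

/-- **(al)** the two side centres do not have all six colours -/
theorem al (D : DNet T E A o inn) (m : Mid T E M v q q') :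
    ∃ i, i ∉ T (v + q - M) ∧ i ∉ T (v + q' - M) := by
  by_contra hcon
  push Not at hcon
  have hall : ∀ i, i ∈ T (v + q - M) ∨ i ∈ T (v + q' - M) := fun i =>
    or_iff_not_imp_left.2 (hcon i)
  obtain ⟨v1, m1⟩ := D.mid_side m
  obtain ⟨v2, m2⟩ := D.mid_side (mid_swap m)
  have hqq := (D.net (T v)).dt_qq (M := M) ⟨m.hv, rfl⟩ ⟨m.hq, m.e⟩ ⟨m.hq', m.e'⟩ m.ne
  have hneq : v + q - M ≠ v + q' - M := fun h => m.ne (by linear_combination h)
  have dq : dist q M = 1 := (D.net (T v)).dist_c (z := M) ⟨m.hq, m.e⟩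
  have dq' : dist q' M = 1 := (D.net (T v)).dist_c (z := M) ⟨m.hq', m.e'⟩
  set p : ℂ := v + q + q' - 2 * M with hp
  have d1 : dist p (v + q - M) = 1 := by
    rw [dist_eq_norm, show p - (v + q - M) = q' - M by rw [hp]; ring, ← dist_eq_norm, dq']
  have d2 : dist p (v + q' - M) = 1 := by
    rw [dist_eq_norm, show p - (v + q' - M) = q - M by rw [hp]; ring, ← dist_eq_norm, dq]
  have n2 : (v + q - M) + (v + q' - M) ≠ 2 * p := by
    intro h
    apply hqq
    have : q' - M = -(q - M) := by rw [hp] at h; linear_combination -h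
    rw [this, dt_neg_right, dt_self, neg_zero]
  have npv : p ≠ v := by
    intro h
    apply n2
    rw [h]
    rw [hp] at h
    linear_combination h
  obtain ⟨h3, hA, hB⟩ := D.common m1.hq m1.hv (by rw [m.e]) m2.hq m2.hv (by rw [m.e']) hneq hall
    d1 d2 n2 (inter_one (D.card_v m.hv) (D.card_i m1.hq) (D.card_i m2.hq) hall)
    (inter_one (D.card_v m.hv) (D.card_i m2.hq) (D.card_i m1.hq) fun i => (hall i).symm)
  have hcov : ∀ i, i ∈ T p ↔ i ∈ T p ∩ T (v + q - M) ∨ i ∈ T p ∩ T (v + q' - M) := by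
    intro i
    constructor
    · intro hi
      rcases hall i with h | h
      · exact Or.inl ⟨hi, h⟩
      · exact Or.inr ⟨hi, h⟩
    · rintro (h | h) <;> exact h.1
  rcases hA with hA | hA <;> rcases hB with hB | hB
  · -- the type of `v`
    have hT : T p = T v := by
      ext i
      rw [hcov, hA, hB]
      constructor
      · rintro (h | h) <;> exact h.1
      · intro hi
        rcases hall i with h | h
        · exact Or.inl ⟨hi, h⟩
        · exact Or.inr ⟨hi, h⟩
    have e1 : E (v + q - M) p := D.auto m1.hq m1.hv (by rw [m.e]) d1 hT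
    have e2 : E (v + q' - M) p := D.auto m2.hq m2.hv (by rw [m.e']) d2 hT
    have := (D.net (T v)).sides (M := M) ⟨m.hv, rfl⟩ ⟨m.hq, m.e⟩ ⟨m.hq', m.e'⟩ m.ne
      ⟨e1, hT⟩ npv ⟨e2, hT⟩ npv
    nlinarith [mul_self_nonneg (dt (M - v) (p - v))]
  · exfalso
    have hdis : Disjoint (T p ∩ T (v + q - M)) (T p ∩ T (v + q' - M)) := by
      rw [hA, hB, m.e', Set.disjoint_left]
      rintro i ⟨h, -⟩ ⟨h', -⟩
      exact h' h
    have hc : (T p).ncard = (T p ∩ T (v + q - M)).ncard + (T p ∩ T (v + q' - M)).ncard := by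
      rw [← ncard_union_eq hdis (toFinite _) (toFinite _)]
      congr 1
      ext i
      exact hcov i
    rw [hA, hB, D.card_i m1.hq, D.card_i m2.hv, h3] at hc
    omega
  · exfalso
    have hdis : Disjoint (T p ∩ T (v + q - M)) (T p ∩ T (v + q' - M)) := by
      rw [hA, hB, m.e, Set.disjoint_left]
      rintro i ⟨h, -⟩ ⟨h', -⟩
      exact h h'
    have hc : (T p).ncard = (T p ∩ T (v + q - M)).ncard + (T p ∩ T (v + q' - M)).ncard := by
      rw [← ncard_union_eq hdis (toFinite _) (toFinite _)]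
      congr 1
      ext i
      exact hcov i
    rw [hA, hB, D.card_i m1.hv, D.card_i m2.hq, h3] at hc
    omega
  · -- the type of `q`
    have hT : T p = T q := by
      ext i
      rw [hcov, hA, hB, m.e, m.e']
      constructor
      · rintro (h | h) <;> exact h.1
      · intro hi
        rcases hall i with h | h
        · exact Or.inl ⟨hi, h⟩
        · exact Or.inr ⟨hi, h⟩
    have e1 : E (v + q - M) p := D.auto m1.hv m1.hq m1.e d1 hT
    have e2 : E (v + q' - M) p := D.auto m2.hv m2.hq m2.e d2 (by rw [hT, m.e, m.e'])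
    have u1 := D.uniq_v m1 e1 hT
    have u2 := D.uniq_v m2 e2 (by rw [hT, m.e, m.e'])
    exact m.ne (u1.symm.trans u2)

theorem sign_iff {a b x y : ℝ} (ha : a = 1 ∨ a = -1) (hb : b = 1 ∨ b = -1) (hxy : x * y < 0)
    (h : (0 < a * x) ↔ ¬ (0 < b * y)) : a = b := by
  have hx : x ≠ 0 := by rintro rfl; simp at hxy
  have hy : y ≠ 0 := by rintro rfl; simp at hxy
  rcases ha with rfl | rfl <;> rcases hb with rfl | rfl
  · rfl
  · exfalso
    rcases lt_or_gt_of_ne hx with h1 | h1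
    · have h2 : 0 < y := by nlinarith
      have : ¬ (0 < (-1 : ℝ) * y) := by linarith
      have := h.2 this
      linarith
    · have h2 : y < 0 := by nlinarith
      exact h.1 (by linarith) (by linarith)
  · exfalso
    rcases lt_or_gt_of_ne hx with h1 | h1
    · have h2 : 0 < y := by nlinarith
      exact h.1 (by linarith) (by linarith)
    · have h2 : y < 0 := by nlinarith
      have : ¬ (0 < (1 : ℝ) * y) := by linarith
      have := h.2 this
      linarith
  · rfl

theorem opp' (D : DNet T E A o inn) (m : Mid T E M v q q') :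
    (inn M v ∈ T (v + q - M) ↔ ¬ inn M v ∈ T (v + q' - M)) := by
  rw [D.be1 m, D.be1 (mid_swap m)]
  have h := D.opp m
  rcases D.ori m.hv with ho | ho <;> rw [ho] <;> constructor <;> intro h1
  · nlinarith
  · by_contra h2; push Not at h1 h2; nlinarith
  · nlinarith
  · by_contra h2; push Not at h1 h2; nlinarith

theorem inter_eq_diff (_D : DNet T E A o inn) {z v q : ℂ} (_h : E z v) (_h' : E z q)
    (e : T q = (T v)ᶜ) : T q ∩ T z = T z \ T v := by
  rw [e]
  ext i
  simp only [mem_inter_iff, mem_compl_iff, mem_sdiff]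
  tauto

/-- **(be)**: the two arcs of the second kind at the middle centre have the same orientation -/
theorem ori_eq (D : DNet T E A o inn) (m : Mid T E M v q q') : o M q = o M q' := by
  obtain ⟨i, hi, hi'⟩ := D.al m
  obtain ⟨v1, m1⟩ := D.mid_side m
  obtain ⟨v2, m2⟩ := D.mid_side (mid_swap m)
  have hiM : i ∈ T M := (D.cov' m i).resolve_right hi
  have hop := D.opp' m
  have hmv := D.inn_mem m.hv
  have hiv : i ∉ T v := by
    intro hiv
    by_cases hji : inn M v = i
    · rw [hji] at hop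
      exact hi (hop.2 hi')
    · exact hop.1 (mem_of_ne (D.card_v m.hv) (D.card_i m1.hq) hiv hi hmv.1 hji)
        (mem_of_ne (D.card_v m.hv) (D.card_i m2.hq) hiv hi' hmv.1 hji)
  have hiq : i ∈ T q := by rw [m.e]; exact hiv
  have hiq' : i ∈ T q' := by rw [m.e']; exact hiv
  have hq := D.inn_mem m.hq
  have hq' := D.inn_mem m.hq'
  have k1 : inn M q ∈ T (v + q - M) ↔ inn M q ≠ i :=
    ⟨fun h h' => hi (h' ▸ h), fun h => mem_of_ne (D.card_v m.hq) (D.card_i m1.hv) hiq hi hq.1 h⟩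
  have k2 : inn M q' ∈ T (v + q' - M) ↔ inn M q' ≠ i :=
    ⟨fun h h' => hi' (h' ▸ h), fun h =>
      mem_of_ne (D.card_v m.hq') (D.card_i m2.hv) hiq' hi' hq'.1 h⟩
  have hop2 := D.opp m
  have hne : inn M q ≠ inn M q' := by
    intro h
    have := (D.LP2 m.fv m.fq m.fq' (D.inter_eq_diff m.hv m.hq m.e)
      (D.inter_eq_diff m.hv m.hq' m.e')).1 h
    linarith
  -- exactly one of the two inner colours is `i`
  have k3 : inn M q ≠ i ↔ ¬ inn M q' ≠ i := by
    constructor
    · intro h h'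
      obtain ⟨x, y, hxy, hS⟩ := ncard_eq_two.1 (D.card_i m.hq)
      have a1 : i ∈ T q ∩ T M := ⟨hiq, hiM⟩
      have a3 : inn M q' ∈ T q ∩ T M := ⟨by rw [m.e, ← m.e']; exact hq'.1, hq'.2⟩
      rw [hS] at a1 a3 hq
      simp only [mem_insert_iff, mem_singleton_iff] at a1 a3 hq
      rcases a1 with a1 | a1 <;> rcases hq with hq | hq <;> rcases a3 with a3 | a3 <;>
        first
          | exact h (hq.trans a1.symm)
          | exact h' (a3.trans a1.symm)
          | exact hne (hq.trans a3.symm)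
    · intro h h'
      push Not at h
      exact hne (h'.trans h.symm)
  refine sign_iff (D.ori m.hq) (D.ori m.hq') hop2 ?_
  rw [← D.be2 m, ← D.be2 (mid_swap m), k1, k2]
  exact k3

/-- **both networks**: the other ends of the arcs at a middle centre -/
theorem both (D : DNet T E A o inn) (m : Mid T E M v q q') {v' r r' : ℂ} (hv' : A M v v')
    (hr : A M q r) (hr' : A M q' r') :
    Mid T E M v' r r' ∧ T v' ≠ T v ∧ T r ≠ T q := by
  have ev' := D.arc_end m.fv hv'
  have er := D.arc_end m.fq hr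
  have er' := D.arc_end m.fq' hr'
  have h1 : T v' ≠ T v := by
    intro h
    have := D.uniq_v m ev' h
    rw [this] at hv'
    have h2 := D.arc_ori m.fv m.fv hv'
    rcases D.ori m.hv with h3 | h3 <;> rw [h3] at h2 <;> norm_num at h2
  have key : ∀ {q r}, E M q → T q = (T v)ᶜ → A M q r →
      (∀ p, E M p → T p = T q → o M p = o M q) → T r ≠ T q := by
    intro q r hq e hr hall h
    have fq : Full T E M q := ⟨hq, v, m.hv, by rw [e, compl_compl]⟩
    have hre := D.arc_end fq hr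
    have h2 := D.arc_ori fq ⟨hre, v, m.hv, by rw [h, e, compl_compl]⟩ hr
    rw [hall r hre h] at h2
    rcases D.ori hq with h3 | h3 <;> rw [h3] at h2 <;> norm_num at h2
  have hoo := D.ori_eq m
  have h2 : T r ≠ T q := key m.hq m.e hr (fun p hp h => by
    rcases D.uniq_q m hp (h.trans m.e) with h' | h' <;> rw [h']
    exact hoo.symm)
  have h3 : T r' ≠ T q' := key m.hq' m.e' hr' (fun p hp h => by
    rcases D.uniq_q m hp (h.trans m.e') with h' | h' <;> rw [h']
    exact hoo)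
  have e1 : T r = (T v')ᶜ := type_swap_compl (D.card_v m.hv) (D.card_v ev') m.e
      (D.card_v er) (D.card_i m.hv) (D.card_i m.hq) (D.arc_pair m.fv hv') h1
      (D.arc_pair m.fq hr) h2
  have e2 : T r' = (T v')ᶜ := type_swap_compl (D.card_v m.hv) (D.card_v ev') m.e'
      (D.card_v er') (D.card_i m.hv) (D.card_i m.hq') (D.arc_pair m.fv hv') h1
      (D.arc_pair m.fq' hr') h3
  refine ⟨⟨ev', er, er', e1, e2, ?_⟩, h1, h2⟩
  intro h
  subst h
  have fr : Full T E M r := ⟨er, v', ev', by rw [e1, compl_compl]⟩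
  exact m.ne (D.arc_uniq fr (D.arc_symm m.fq fr hr) (D.arc_symm m.fq' fr hr'))

/-- an end of the type of the far end of the arc at `v` is this far end -/
theorem uniq_far (D : DNet T E A o inn) (m : Mid T E M v q q') {v' p : ℂ} (hv' : A M v v')
    (hd : dist p M = 1) (h : T p = T v') : p = v' := by
  obtain ⟨r, hr⟩ := D.arc_ex m.fq
  obtain ⟨r', hr'⟩ := D.arc_ex m.fq'
  obtain ⟨b, -, -⟩ := D.both m hv' hr hr'
  exact D.uniq_v b (D.auto b.hv b.hq b.e hd h) h

/-- the colours of `w = v + q - M` and `w* = v' + r - M` -/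
theorem far_cov (D : DNet T E A o inn) (m : Mid T E M v q q') {v' r r' : ℂ} (hv' : A M v v')
    (hr : A M q r) (hr' : A M q' r') (i : Fin 6) :
    i ∈ T (v + q - M) ∨ i ∈ T (v' + r - M) := by
  obtain ⟨b, n1, n2⟩ := D.both m hv' hr hr'
  have fv' : Full T E M v' := b.fv
  have fr : Full T E M r := b.fq
  obtain ⟨a1, m1⟩ := D.mid_side m
  obtain ⟨a2, m2⟩ := D.mid_side b
  have pv := D.arc_pair m.fv hv'
  have pr := D.arc_pair m.fq hr
  have iv := D.arc_inn m.fv fv' hv'
  have ir := D.arc_inn m.fq fr hr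
  have ov := D.arc_ori m.fv fv' hv'
  have or' := D.arc_ori m.fq fr hr
  -- `T v ∩ T M = T M \ T q` and so on
  have hqv : T v ∩ T M = T M \ T q := by
    rw [m.e]; ext i; simp only [mem_inter_iff, mem_compl_iff, mem_sdiff]; tauto
  have hvq : T q ∩ T M = T M \ T v := by
    rw [m.e]; ext i; simp only [mem_inter_iff, mem_compl_iff, mem_sdiff]; tauto
  have hv'q : T q ∩ T M = T M \ T v' := by
    rw [← pr, b.e]; ext i; simp only [mem_inter_iff, mem_compl_iff, mem_sdiff]; tauto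
  have s1 : 0 < dt (q - M) (v - M) * dt (q - M) (v' - M) :=
    (D.LP2 m.fq m.fv fv' hqv (pv.trans hqv)).1 iv.symm
  have s2 : 0 < dt (v' - M) (q - M) * dt (v' - M) (r - M) :=
    (D.LP2 fv' m.fq fr hv'q (pr.trans hv'q)).1 ir.symm
  have s3 : 0 < dt (v - M) (q - M) * dt (v' - M) (r - M) := by
    rw [dt_comm (v - M) (q - M), dt_comm (v' - M) (q - M)] at s1
    set x := dt (v - M) (q - M)
    set y := dt (v' - M) (q - M)
    set z := dt (v' - M) (r - M)
    have h1 : 0 < x * y := by linarith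
    by_contra hcon
    push Not at hcon
    have h2 : 0 < (x * y) * (y * z) := mul_pos h1 s2
    have h3 : (x * y) * (y * z) = (x * z) * y ^ 2 := by ring
    rw [h3] at h2
    nlinarith [sq_nonneg y]
  -- the inner colours
  have c1 : inn M v ∈ T (v' + r - M) ↔ ¬ inn M v ∈ T (v + q - M) := by
    have h1 := D.be1 b
    rw [iv, ov] at h1
    rw [h1, D.be1 m]
    rcases D.ori m.hv with ho | ho <;> rw [ho] <;> constructor <;> intro h
    · push Not; nlinarith
    · push Not at h; nlinarith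
    · push Not; nlinarith
    · push Not at h; nlinarith
  have c2 : inn M q ∈ T (v' + r - M) ↔ ¬ inn M q ∈ T (v + q - M) := by
    have h1 := D.be2 b
    rw [ir, or'] at h1
    rw [h1, D.be2 m]
    rcases D.ori m.hq with ho | ho <;> rw [ho] <;> constructor <;> intro h
    · push Not; nlinarith
    · push Not at h; nlinarith
    · push Not; nlinarith
    · push Not at h; nlinarith
  by_contra hcon
  push Not at hcon
  obtain ⟨hi, hi'⟩ := hcon
  have hiM : i ∈ T M := (D.cov' m i).resolve_right hi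
  have hmv := D.inn_mem m.hv
  have hmq := D.inn_mem m.hq
  have hmv' := D.inn_mem b.hv
  have hmr := D.inn_mem b.hq
  rw [iv] at hmv'
  rw [ir] at hmr
  by_cases hiv : i ∈ T v
  · have hiv' : i ∈ T v' := (pv.superset ⟨hiv, hiM⟩).1
    by_cases hji : inn M v = i
    · rw [hji] at c1
      exact hi' (c1.2 hi)
    · exact c1.1 (mem_of_ne (D.card_v b.hv) (D.card_i m2.hq) hiv' hi' hmv'.1 hji)
        (mem_of_ne (D.card_v m.hv) (D.card_i m1.hq) hiv hi hmv.1 hji)
  · have hiq : i ∈ T q := by rw [m.e]; exact hiv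
    have hir : i ∈ T r := (pr.superset ⟨hiq, hiM⟩).1
    by_cases hji : inn M q = i
    · rw [hji] at c2
      exact hi' (c2.2 hi)
    · exact c2.1 (mem_of_ne (D.card_v b.hq) (D.card_i m2.hv) hir hi' hmr.1 hji)
        (mem_of_ne (D.card_v m.hq) (D.card_i m1.hv) hiq hi hmq.1 hji)

/-- a common point of the circles about `w = v + q - M` and `w* = v' + r - M` is the far end of
the arc at `q` on the first one or the far end of the arc at `r` on the second one -/
theorem common_far (D : DNet T E A o inn) (m : Mid T E M v q q') {v' r r' : ℂ}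
    (hv' : A M v v') (hr : A M q r) (hr' : A M q' r') {x y p : ℂ}
    (hx : A (v + q - M) q x) (hy : A (v' + r - M) r y)
    (d1 : dist p (v + q - M) = 1) (d2 : dist p (v' + r - M) = 1)
    (n : (v + q - M) + (v' + r - M) ≠ 2 * p) : p = x ∨ p = y := by
  obtain ⟨b, n1, n2⟩ := D.both m hv' hr hr'
  obtain ⟨a1, m1⟩ := D.mid_side m
  obtain ⟨a2, m2⟩ := D.mid_side b
  have hall := D.far_cov m hv' hr hr'
  have pv := D.arc_pair m.fv hv'
  have pr := D.arc_pair m.fq hr
  have hne : v + q - M ≠ v' + r - M := by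
    intro h
    have h4 := D.card_z m1.hv
    have : T (v + q - M) = univ := by
      ext i
      simp only [mem_univ, iff_true]
      rcases hall i with h' | h'
      · exact h'
      · rw [h]; exact h'
    rw [this, ncard_univ, Nat.card_eq_fintype_card, Fintype.card_fin] at h4
    omega
  -- outer colours of `M`
  obtain ⟨e, hev, heM⟩ := exists_out (D.card_v m.hv) (D.card_i m.hv)
  obtain ⟨f, hfv', hfM⟩ := exists_out (D.card_v b.hv) (D.card_i b.hv)
  have hew : e ∈ T (v + q - M) := (D.cov' m e).resolve_left heM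
  have hew' : e ∈ T (v' + r - M) := (D.cov' b e).resolve_left heM
  have hfw : f ∈ T (v + q - M) := (D.cov' m f).resolve_left hfM
  have hfw' : f ∈ T (v' + r - M) := (D.cov' b f).resolve_left hfM
  have hTv' : T v' = (T v ∩ T M) ∪ ((T v)ᶜ \ T M) :=
    type_swap (D.card_v m.hv) (D.card_v b.hv) (D.card_i m.hv)
      (by rw [← m.e]; exact D.card_i m.hq) pv n1
  have hfv : f ∉ T v := by
    rw [hTv'] at hfv'
    rcases hfv' with h | h
    · exact absurd h.2 hfM
    · exact h.1
  have her : e ∈ T r := by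
    rw [b.e, hTv']
    rintro (h | h)
    · exact heM h.2
    · exact h.1 hev
  have heq : e ∉ T q := by rw [m.e]; exact fun h => h hev
  have hev' : e ∉ T v' := by
    rw [hTv']
    rintro (h | h)
    · exact heM h.2
    · exact h.1 hev
  have hef : e ≠ f := by rintro rfl; exact hfv hev
  have hpair : ∀ {i : Fin 6}, i ∈ T (v + q - M) → i ∈ T (v' + r - M) → i = e ∨ i = f :=
    inter_pair (D.card_z m1.hv) (D.card_z m2.hv) hall hew hew' hfw hfw' hef
  have hc1 : (T v ∩ T (v + q - M) ∩ T (v' + r - M)).ncard = 1 := by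
    rw [ncard_eq_one]
    refine ⟨e, ?_⟩
    ext i
    constructor
    · rintro ⟨⟨h1, h2⟩, h3⟩
      rcases hpair h2 h3 with h | h
      · exact h
      · exact absurd (h ▸ h1) hfv
    · rintro rfl
      exact ⟨⟨hev, hew⟩, hew'⟩
  have hc2 : (T v' ∩ T (v' + r - M) ∩ T (v + q - M)).ncard = 1 := by
    rw [ncard_eq_one]
    refine ⟨f, ?_⟩
    ext i
    constructor
    · rintro ⟨⟨h1, h2⟩, h3⟩
      rcases hpair h3 h2 with h | h
      · exact absurd (h ▸ h1) hev'
      · exact h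
    · rintro rfl
      exact ⟨⟨hfv', hfw'⟩, hfw⟩
  obtain ⟨h3, hA, hB⟩ := D.common m1.hq m1.hv m.e m2.hq m2.hv b.e hne hall d1 d2 n hc1 hc2
  rcases hA with hA | hA <;> rcases hB with hB | hB
  · -- `f` would be in `T v`
    exfalso
    have h1 : f ∈ T p ∩ T (v' + r - M) := by rw [hB]; exact ⟨hfv', hfw'⟩
    have h2 : f ∈ T p ∩ T (v + q - M) := ⟨h1.1, hfw⟩
    rw [hA] at h2
    exact hfv h2.1
  · -- type of `y`
    right
    have hn : T p ≠ T r := by
      -- an element of `T v ∩ T w` in `T M`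
      obtain ⟨g, hg, hgM⟩ : ∃ g, g ∈ T v ∩ T (v + q - M) ∧ g ≠ e := by
        by_contra hcon
        push Not at hcon
        have : (T v ∩ T (v + q - M)).ncard ≤ ({e} : Set (Fin 6)).ncard :=
          ncard_le_ncard (fun g hg => hcon g hg) (toFinite _)
        rw [ncard_singleton, D.card_i m1.hq] at this
        omega
      intro h
      have hgp : g ∈ T p ∩ T (v + q - M) := by rw [hA]; exact hg
      have hgr : g ∈ T r := h ▸ hgp.1
      have hgMM : g ∈ T M := mem_of_ne (D.card_v m.hv) (D.card_i m.hv) hev heM hg.1 hgM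
      have : g ∈ T v' := (pv.superset ⟨hg.1, hgMM⟩).1
      rw [b.e] at hgr
      exact hgr this
    have hyn : T y ≠ T r := by
      obtain ⟨s, hs⟩ := D.arc_ex m2.fq
      obtain ⟨s', hs'⟩ := D.arc_ex m2.fq'
      exact (D.both m2 hy hs hs').2.1
    have hyE := D.arc_end m2.fv hy
    have hyp := D.arc_pair m2.fv hy
    have hcc : ((T r)ᶜ ∩ T (v' + r - M)).ncard = 2 := by
      rw [b.e, compl_compl]; exact D.card_i m2.hq
    have hT : T p = T y := by
      rw [type_swap (D.card_v b.hq) h3 (D.card_i m2.hv) hcc hB hn,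
        type_swap (D.card_v b.hq) (D.card_v hyE) (D.card_i m2.hv) hcc hyp hyn]
    exact D.uniq_far m2 hy d2 hT
  · -- type of `x`
    left
    have hn : T p ≠ T q := by
      obtain ⟨g, hg, hgM⟩ : ∃ g, g ∈ T v' ∩ T (v' + r - M) ∧ g ≠ f := by
        by_contra hcon
        push Not at hcon
        have : (T v' ∩ T (v' + r - M)).ncard ≤ ({f} : Set (Fin 6)).ncard :=
          ncard_le_ncard (fun g hg => hcon g hg) (toFinite _)
        rw [ncard_singleton, D.card_i m2.hq] at this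
        omega
      intro h
      have hgp : g ∈ T p ∩ T (v' + r - M) := by rw [hB]; exact hg
      have hgr : g ∈ T q := h ▸ hgp.1
      have hgMM : g ∈ T M := mem_of_ne (D.card_v b.hv) (D.card_i b.hv) hfv' hfM hg.1 hgM
      have : g ∈ T v := (pv.subset ⟨hg.1, hgMM⟩).1
      rw [m.e] at hgr
      exact hgr this
    have hxn : T x ≠ T q := by
      obtain ⟨s, hs⟩ := D.arc_ex m1.fq
      obtain ⟨s', hs'⟩ := D.arc_ex m1.fq'
      exact (D.both m1 hx hs hs').2.1
    have hxE := D.arc_end m1.fv hx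
    have hxp := D.arc_pair m1.fv hx
    have hcc : ((T q)ᶜ ∩ T (v + q - M)).ncard = 2 := by
      rw [m.e, compl_compl]; exact D.card_i m1.hq
    have hT : T p = T x := by
      rw [type_swap (D.card_v m.hq) h3 (D.card_i m1.hv) hcc hA hn,
        type_swap (D.card_v m.hq) (D.card_v hxE) (D.card_i m1.hv) hcc hxp hxn]
    exact D.uniq_far m1 hx d1 hT
  · -- `e` would be in `T q`
    exfalso
    have h1 : e ∈ T p ∩ T (v' + r - M) := by rw [hB]; exact ⟨her, hew'⟩
    have h2 : e ∈ T p ∩ T (v + q - M) := ⟨h1.1, hew⟩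
    rw [hA] at h2
    exact heq h2.1

end DNet

end Vale.Agent.P032.Net.H672
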