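import Mathlib

/-!
# P032: the network of two-pair centres, abstract form

`tE z v`: `v` is an end of type `T` of the circle about `z`; `cE z q`: `q` is an end of the
complementary type. The axioms are the rhombus, three centres at every vertex, separation of the
two kinds of lines at a centre, and two facts on the word of one circle (`L2`, `L3`).
-/

open Complex

set_option linter.dupNamespace false

namespace Vale.Agent.P032.Net.H672

/-- determinant of two vectors -/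
def dt (x y : ℂ) : ℝ := x.re * y.im - x.im * y.re

/-- a network -/
structure Net (tE cE : ℂ → ℂ → Prop) : Prop where
  dist_t : ∀ {z v}, tE z v → dist v z = 1
  dist_c : ∀ {z q}, cE z q → dist q z = 1
  ne : ∀ {z z' v}, tE z v → cE z' v → False
  rh : ∀ {z v q}, tE z v → cE z q → tE (v + q - z) v ∧ cE (v + q - z) q
  three_t : ∀ {v z₁ z₂ z₃ z₄}, (tE z₁ v ∧ ∃ q, cE z₁ q) → (tE z₂ v ∧ ∃ q, cE z₂ q) →
    (tE z₃ v ∧ ∃ q, cE z₃ q) → (tE z₄ v ∧ ∃ q, cE z₄ q) →
    z₁ = z₂ ∨ z₁ = z₃ ∨ z₁ = z₄ ∨ z₂ = z₃ ∨ z₂ = z₄ ∨ z₃ = z₄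
  three_c : ∀ {q z₁ z₂ z₃ z₄}, (cE z₁ q ∧ ∃ v, tE z₁ v) → (cE z₂ q ∧ ∃ v, tE z₂ v) →
    (cE z₃ q ∧ ∃ v, tE z₃ v) → (cE z₄ q ∧ ∃ v, tE z₄ v) →
    z₁ = z₂ ∨ z₁ = z₃ ∨ z₁ = z₄ ∨ z₂ = z₃ ∨ z₂ = z₄ ∨ z₃ = z₄
  sep : ∀ {z v₁ v₂ q₁ q₂}, tE z v₁ → tE z v₂ → cE z q₁ → cE z q₂ →
    0 < dt (v₁ - z) (q₁ - z) * dt (v₁ - z) (q₂ - z) * (dt (v₂ - z) (q₁ - z) * dt (v₂ - z) (q₂ - z))
  L2 : ∀ {z v q}, tE z v → cE z q → (∃ v', v' ≠ v ∧ tE z v') ∨ ∃ q', q' ≠ q ∧ cE z q'
  L3 : ∀ {z v q q'}, tE z v → cE z q → cE z q' → q ≠ q' → (∀ v', tE z v' → v' = v) →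
    (∀ p, cE z p → p = q ∨ p = q') →
    ∃ α β γ : ℝ, 0 < α ∧ 0 < β ∧ 0 < γ ∧
      (α : ℂ) * (v - z) + (β : ℂ) * (q - z) + (γ : ℂ) * (q' - z) = 0
  L3' : ∀ {z q v v'}, cE z q → tE z v → tE z v' → v ≠ v' → (∀ q', cE z q' → q' = q) →
    (∀ p, tE z p → p = v ∨ p = v') →
    ∃ α β γ : ℝ, 0 < α ∧ 0 < β ∧ 0 < γ ∧
      (α : ℂ) * (q - z) + (β : ℂ) * (v - z) + (γ : ℂ) * (v' - z) = 0

theorem dt_comm (x y : ℂ) : dt y x = -dt x y := by unfold dt; ring

theorem dt_neg_left (x y : ℂ) : dt (-x) y = -dt x y := by unfold dt; simp; ring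

theorem dt_neg_right (x y : ℂ) : dt x (-y) = -dt x y := by unfold dt; simp; ring

theorem dt_self (x : ℂ) : dt x x = 0 := by unfold dt; ring

theorem dt_lin (x : ℂ) {a b c : ℂ} {α β γ : ℝ}
    (h : (α : ℂ) * a + (β : ℂ) * b + (γ : ℂ) * c = 0) :
    α * dt x a + β * dt x b + γ * dt x c = 0 := by
  have h1 := congrArg Complex.re h
  have h2 := congrArg Complex.im h
  simp at h1 h2
  unfold dt
  linear_combination x.re * h2 - x.im * h1

variable {tE cE : ℂ → ℂ → Prop}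

/-- exchange of the two types -/
theorem Net.swap (N : Net tE cE) : Net cE tE where
  dist_t := N.dist_c
  dist_c := N.dist_t
  ne := fun h1 h2 => N.ne h2 h1
  rh := fun {z v q} h1 h2 => by
    have := N.rh h2 h1
    rw [show q + v - z = v + q - z by ring] at this
    exact ⟨this.2, this.1⟩
  three_t := N.three_c
  three_c := N.three_t
  sep := fun {z v₁ v₂ q₁ q₂} h1 h2 h3 h4 => by
    have := N.sep h3 h4 h1 h2
    rw [dt_comm (q₁ - z) (v₁ - z), dt_comm (q₂ - z) (v₁ - z), dt_comm (q₁ - z) (v₂ - z),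
      dt_comm (q₂ - z) (v₂ - z)]
    refine this.trans_le (le_of_eq ?_)
    ring
  L2 := fun h1 h2 => (N.L2 h2 h1).symm
  L3 := N.L3'
  L3' := N.L3

theorem Net.dt_ne (N : Net tE cE) {z v q : ℂ} (hv : tE z v) (hq : cE z q) :
    dt (v - z) (q - z) ≠ 0 := by
  intro h
  have := N.sep hv hv hq hq
  rw [h] at this
  simp at this

/-- the ends of the two types are never antipodal -/
theorem Net.ne_z (N : Net tE cE) {z v q : ℂ} (hv : tE z v) (hq : cE z q) : v + q - z ≠ z := by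
  intro h
  apply N.dt_ne hv hq
  have : q - z = -(v - z) := by linear_combination h
  rw [this, dt_neg_right, dt_self, neg_zero]

/-- at most two ends of the second type if there is one of the first type -/
theorem Net.card_c (N : Net tE cE) {z v q₁ q₂ q₃ : ℂ} (hv : tE z v) (h1 : cE z q₁)
    (h2 : cE z q₂) (h3 : cE z q₃) : q₁ = q₂ ∨ q₁ = q₃ ∨ q₂ = q₃ := by
  have key : ∀ {q}, cE z q → tE (v + q - z) v ∧ ∃ p, cE (v + q - z) p := fun {q} hq =>
    ⟨(N.rh hv hq).1, q, (N.rh hv hq).2⟩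
  rcases N.three_t ⟨hv, q₁, h1⟩ (key h1) (key h2) (key h3) with h | h | h | h | h | h
  · exact absurd h.symm (N.ne_z hv h1)
  · exact absurd h.symm (N.ne_z hv h2)
  · exact absurd h.symm (N.ne_z hv h3)
  · left; linear_combination h
  · right; left; linear_combination h
  · right; right; linear_combination h

theorem Net.card_t (N : Net tE cE) {z q v₁ v₂ v₃ : ℂ} (hq : cE z q) (h1 : tE z v₁)
    (h2 : tE z v₂) (h3 : tE z v₃) : v₁ = v₂ ∨ v₁ = v₃ ∨ v₂ = v₃ :=
  N.swap.card_c hq h1 h2 h3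

/-- two of the three centres cannot both have a single `T`-end -/
theorem Net.aux_one (N : Net tE cE) {v c₁ c₂ c₃ : ℂ} (t1 : tE c₁ v) (t2 : tE c₂ v)
    (h13 : c₁ ≠ c₃) (h23 : c₂ ≠ c₃)
    (a12 : cE c₁ (c₁ + c₂ - v)) (b12 : cE c₂ (c₁ + c₂ - v))
    (a13 : cE c₁ (c₁ + c₃ - v)) (b23 : cE c₂ (c₂ + c₃ - v))
    (o1 : ∀ v', tE c₁ v' → v' = v) (o2 : ∀ v', tE c₂ v' → v' = v) : False := by
  have n1 : c₁ + c₂ - v ≠ c₁ + c₃ - v := fun h => h23 (by linear_combination h)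
  have n2 : c₁ + c₂ - v ≠ c₂ + c₃ - v := fun h => h13 (by linear_combination h)
  obtain ⟨α, β, γ, hα, hβ, hγ, h1⟩ := N.L3 t1 a12 a13 n1 o1 (fun p hp => by
    rcases N.card_c t1 hp a12 a13 with h | h | h
    · exact Or.inl h
    · exact Or.inr h
    · exact absurd h n1)
  obtain ⟨α', β', γ', hα', hβ', hγ', h2⟩ := N.L3 t2 b12 b23 n2 o2 (fun p hp => by
    rcases N.card_c t2 hp b12 b23 with h | h | h
    · exact Or.inl h
    · exact Or.inr h
    · exact absurd h n2)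
  -- pair with `u₁ = c₁ - v`
  have e1 := dt_lin (c₁ - v) h1
  have e2 := dt_lin (c₁ - v) h2
  rw [show v - c₁ = -(c₁ - v) by ring, show c₁ + c₂ - v - c₁ = c₂ - v by ring,
    show c₁ + c₃ - v - c₁ = c₃ - v by ring, dt_neg_right, dt_self] at e1
  rw [show v - c₂ = -(c₂ - v) by ring, show c₁ + c₂ - v - c₂ = c₁ - v by ring,
    show c₂ + c₃ - v - c₂ = c₃ - v by ring, dt_neg_right, dt_self] at e2
  have e3 := N.dt_ne t1 a12
  rw [show v - c₁ = -(c₁ - v) by ring, show c₁ + c₂ - v - c₁ = c₂ - v by ring,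
    dt_neg_left] at e3
  apply e3
  have h3 : (β * γ' + α' * γ) * dt (c₁ - v) (c₂ - v) = 0 := by
    linear_combination γ' * e1 - γ * e2
  rcases mul_eq_zero.1 h3 with h | h
  · exact absurd h (by positivity)
  · rw [h, neg_zero]

/-- the second `T`-ends of two of the centres are in the same direction -/
theorem Net.aux_dir (N : Net tE cE) {v c₁ c₂ v₁ v₂ : ℂ} (t1 : tE c₁ v) (t2 : tE c₂ v)
    (h12 : c₁ ≠ c₂) (a12 : cE c₁ (c₁ + c₂ - v)) (b12 : cE c₂ (c₁ + c₂ - v))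
    (s1 : tE c₁ v₁) (s2 : tE c₂ v₂) (n1 : v₁ ≠ v) (n2 : v₂ ≠ v) : v₂ - c₂ = v₁ - c₁ := by
  have r1 := N.rh s1 a12
  have r2 := N.rh s2 b12
  rcases N.three_c ⟨a12, v, t1⟩ ⟨b12, v, t2⟩ ⟨r1.2, _, r1.1⟩ ⟨r2.2, _, r2.1⟩ with
    h | h | h | h | h | h
  · exact absurd h h12
  · exact absurd h.symm (N.ne_z s1 a12)
  · exact absurd (by linear_combination -h) n2
  · exact absurd (by linear_combination -h) n1
  · exact absurd h.symm (N.ne_z s2 b12)
  · linear_combination -h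

/-- three pairings of four lines -/
theorem three_pairings {u₁ u₂ u₃ n : ℂ}
    (h1 : 0 < dt u₁ u₂ * dt u₁ u₃ * (dt n u₂ * dt n u₃))
    (h2 : 0 < dt u₂ u₁ * dt u₂ u₃ * (dt n u₁ * dt n u₃))
    (h3 : 0 < dt u₃ u₁ * dt u₃ u₂ * (dt n u₁ * dt n u₂)) : False := by
  rw [dt_comm u₁ u₂] at h2
  rw [dt_comm u₁ u₃, dt_comm u₂ u₃] at h3
  have h := mul_pos (mul_pos h1 h2) h3
  have h4 : 0 ≤ (dt u₁ u₂ * dt u₁ u₃ * dt u₂ u₃ * dt n u₁ * dt n u₂ * dt n u₃) ^ 2 :=
    sq_nonneg _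
  nlinarith [h, h4]

/-- two of the three centres cannot both have a second `T`-end -/
theorem Net.aux_two (N : Net tE cE) {v c₁ c₂ c₃ : ℂ} (t1 : tE c₁ v) (t2 : tE c₂ v)
    (t3 : tE c₃ v) (h12 : c₁ ≠ c₂) (h13 : c₁ ≠ c₃) (h23 : c₂ ≠ c₃)
    (a12 : cE c₁ (c₁ + c₂ - v)) (b12 : cE c₂ (c₁ + c₂ - v))
    (a13 : cE c₁ (c₁ + c₃ - v)) (b13 : cE c₃ (c₁ + c₃ - v))
    (a23 : cE c₂ (c₂ + c₃ - v)) (b23 : cE c₃ (c₂ + c₃ - v)) {v₁ v₂ : ℂ}
    (s1 : tE c₁ v₁) (n1 : v₁ ≠ v) (s2 : tE c₂ v₂) (n2 : v₂ ≠ v) : False := by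
  have hd := N.aux_dir t1 t2 h12 a12 b12 s1 s2 n1 n2
  -- the vectors
  have sep1 := N.sep t1 s1 a12 a13
  have sep2 := N.sep t2 s2 b12 a23
  rw [show v - c₁ = -(c₁ - v) by ring, show c₁ + c₂ - v - c₁ = c₂ - v by ring,
    show c₁ + c₃ - v - c₁ = c₃ - v by ring, dt_neg_left, dt_neg_left, neg_mul_neg] at sep1
  rw [hd, show v - c₂ = -(c₂ - v) by ring, show c₁ + c₂ - v - c₂ = c₁ - v by ring,
    show c₂ + c₃ - v - c₂ = c₃ - v by ring, dt_neg_left, dt_neg_left, neg_mul_neg] at sep2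
  refine three_pairings sep1 sep2 ?_
  by_cases hs3 : ∃ v₃, v₃ ≠ v ∧ tE c₃ v₃
  · obtain ⟨v₃, n3, s3⟩ := hs3
    have hd3 := N.aux_dir t1 t3 h13 a13 b13 s1 s3 n1 n3
    have sep3 := N.sep t3 s3 b13 b23
    rw [hd3, show v - c₃ = -(c₃ - v) by ring, show c₁ + c₃ - v - c₃ = c₁ - v by ring,
      show c₂ + c₃ - v - c₃ = c₂ - v by ring, dt_neg_left, dt_neg_left, neg_mul_neg] at sep3
    exact sep3
  · push Not at hs3
    -- `r₁₃`
    have r13 := N.rh s1 a13
    have r12 := N.rh s1 a12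
    have huniq : ∀ v', tE (v₁ + (c₁ + c₃ - v) - c₁) v' → v' = v₁ := by
      intro v' hv'
      by_contra hne
      have r := N.rh hv' r13.2
      rcases N.three_c ⟨a13, v, t1⟩ ⟨b13, v, t3⟩ ⟨r13.2, _, r13.1⟩ ⟨r.2, _, r.1⟩ with
        h | h | h | h | h | h
      · exact h13 h
      · exact N.ne_z s1 a13 h.symm
      · exact hne (by linear_combination -h)
      · exact n1 (by linear_combination -h)
      · have hv3 : tE c₃ v' := by
          rw [h]; exact r.1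
        by_cases hvv : v' = v
        · -- then `n = -u₃`
          have e1 : v₁ - c₁ = -(c₃ - v) := by linear_combination h + hvv
          have e2 := N.dt_ne s1 a13
          rw [e1, show c₁ + c₃ - v - c₁ = c₃ - v by ring, dt_neg_left, dt_self, neg_zero] at e2
          exact e2 rfl
        · exact hs3 v' hvv hv3
      · exact N.ne_z hv' r13.2 h.symm
    rcases N.L2 r13.1 r13.2 with ⟨v', hne, hv'⟩ | ⟨q, hne, hq⟩
    · exact absurd (huniq v' hv') hne
    · have r := N.rh r13.1 hq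
      have hq2 : v₁ + q - (v₁ + (c₁ + c₃ - v) - c₁) = v₁ + (c₁ + c₂ - v) - c₁ := by
        rcases N.three_t ⟨s1, _, a12⟩ ⟨r12.1, _, r12.2⟩ ⟨r13.1, _, r13.2⟩ ⟨r.1, _, r.2⟩ with
          h | h | h | h | h | h
        · exact absurd h.symm (N.ne_z s1 a12)
        · exact absurd h.symm (N.ne_z s1 a13)
        · exact absurd (by linear_combination -h) hne
        · exact absurd (by linear_combination h) h23
        · exact h.symm
        · exact absurd h.symm (N.ne_z r13.1 hq)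
      have hq3 : q = v₁ + (c₁ + c₃ - v) - c₁ + (c₂ - v) := by linear_combination hq2
      have cq : cE (v₁ + (c₁ + c₂ - v) - c₁) q := by rw [← hq2]; exact r.2
      have w2 := N.rh s2 b12
      have hw : v₂ + (c₁ + c₂ - v) - c₂ = v₁ + (c₁ + c₂ - v) - c₁ := by
        linear_combination hd
      rw [hw] at w2
      have sep3 := N.sep r12.1 w2.1 r12.2 cq
      rw [show v₁ - (v₁ + (c₁ + c₂ - v) - c₁) = -(c₂ - v) by ring,
        show v₂ - (v₁ + (c₁ + c₂ - v) - c₁) = -(c₁ - v) by linear_combination hd,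
        show c₁ + c₂ - v - (v₁ + (c₁ + c₂ - v) - c₁) = -(v₁ - c₁) by ring,
        show q - (v₁ + (c₁ + c₂ - v) - c₁) = c₃ - v by rw [hq3]; ring] at sep3
      simp only [dt_neg_left, dt_neg_right] at sep3
      rw [dt_comm (v₁ - c₁) (c₂ - v), dt_comm (v₁ - c₁) (c₁ - v)] at sep3
      rw [dt_comm (c₁ - v) (c₃ - v), dt_comm (c₂ - v) (c₃ - v)]
      refine sep3.trans_le (le_of_eq ?_)
      ring

/-- **D3**: no vertex has three neighbours. -/
theorem Net.no_three (N : Net tE cE) {v c₁ c₂ c₃ : ℂ} (t1 : tE c₁ v) (t2 : tE c₂ v)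
    (t3 : tE c₃ v) (h12 : c₁ ≠ c₂) (h13 : c₁ ≠ c₃) (h23 : c₂ ≠ c₃)
    (a12 : cE c₁ (c₁ + c₂ - v)) (b12 : cE c₂ (c₁ + c₂ - v))
    (a13 : cE c₁ (c₁ + c₃ - v)) (b13 : cE c₃ (c₁ + c₃ - v))
    (a23 : cE c₂ (c₂ + c₃ - v)) (b23 : cE c₃ (c₂ + c₃ - v)) : False := by
  have a21 := b12
  have b21 := a12
  have a31 := b13
  have b31 := a13
  have a32 := b23
  have b32 := a23
  rw [show c₁ + c₂ - v = c₂ + c₁ - v by ring] at a21 b21
  rw [show c₁ + c₃ - v = c₃ + c₁ - v by ring] at a31 b31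
  rw [show c₂ + c₃ - v = c₃ + c₂ - v by ring] at a32 b32
  by_cases o1 : ∃ v', v' ≠ v ∧ tE c₁ v' <;> by_cases o2 : ∃ v', v' ≠ v ∧ tE c₂ v' <;>
    by_cases o3 : ∃ v', v' ≠ v ∧ tE c₃ v'
  · obtain ⟨v₁, n1, s1⟩ := o1
    obtain ⟨v₂, n2, s2⟩ := o2
    exact N.aux_two t1 t2 t3 h12 h13 h23 a12 b12 a13 b13 a23 b23 s1 n1 s2 n2
  · obtain ⟨v₁, n1, s1⟩ := o1
    obtain ⟨v₂, n2, s2⟩ := o2
    exact N.aux_two t1 t2 t3 h12 h13 h23 a12 b12 a13 b13 a23 b23 s1 n1 s2 n2
  · obtain ⟨v₁, n1, s1⟩ := o1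
    obtain ⟨v₃, n3, s3⟩ := o3
    exact N.aux_two t1 t3 t2 h13 h12 h23.symm a13 b13 a12 b12 a32 b32 s1 n1 s3 n3
  · push Not at o2 o3
    exact N.aux_one t2 t3 h12.symm h13.symm a23 b23 a21 a31
      (fun v' h => by by_contra hh; exact o2 v' hh h) (fun v' h => by by_contra hh; exact o3 v' hh h)
  · obtain ⟨v₂, n2, s2⟩ := o2
    obtain ⟨v₃, n3, s3⟩ := o3
    exact N.aux_two t2 t3 t1 h23 h12.symm h13.symm a23 b23 a21 b21 a31 b31 s2 n2 s3 n3
  · push Not at o1 o3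
    exact N.aux_one t1 t3 h12 h23.symm a13 b13 a12 a32
      (fun v' h => by by_contra hh; exact o1 v' hh h) (fun v' h => by by_contra hh; exact o3 v' hh h)
  · push Not at o1 o2
    exact N.aux_one t1 t2 h13 h23 a12 b12 a13 a23
      (fun v' h => by by_contra hh; exact o1 v' hh h) (fun v' h => by by_contra hh; exact o2 v' hh h)
  · push Not at o1 o2
    exact N.aux_one t1 t2 h13 h23 a12 b12 a13 a23
      (fun v' h => by by_contra hh; exact o1 v' hh h) (fun v' h => by by_contra hh; exact o2 v' hh h)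

/-- the second centre of a pair of neighbours does not see a third neighbour -/
theorem Net.no_third (N : Net tE cE) {z v q₁ q₂ q' : ℂ} (hv : tE z v) (h1 : cE z q₁)
    (h2 : cE z q₂) (h12 : q₁ ≠ q₂) (h : cE (v + q₁ - z) q') : q' = q₁ := by
  by_contra hne
  have w1 := N.rh hv h1
  have w2 := N.rh hv h2
  have r := N.rh w1.1 h
  have hc : v + q' - (v + q₁ - z) = v + q₂ - z := by
    rcases N.three_t ⟨hv, _, h1⟩ ⟨w1.1, _, w1.2⟩ ⟨w2.1, _, w2.2⟩ ⟨r.1, _, r.2⟩ with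
      h | h | h | h | h | h
    · exact absurd h.symm (N.ne_z hv h1)
    · exact absurd h.symm (N.ne_z hv h2)
    · exact absurd (by linear_combination -h) hne
    · exact absurd (by linear_combination h) h12
    · exact absurd h.symm (N.ne_z w1.1 (by assumption))
    · exact h.symm
  have hq : q' = (v + q₁ - z) + (v + q₂ - z) - v := by linear_combination hc
  refine N.no_three (v := v) (c₁ := z) (c₂ := v + q₁ - z) (c₃ := v + q₂ - z) hv w1.1 w2.1
    (N.ne_z hv h1).symm (N.ne_z hv h2).symm (fun h => h12 (by linear_combination h)) ?_ ?_ ?_ ?_ ?_ ?_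
  · rw [show z + (v + q₁ - z) - v = q₁ by ring]; exact h1
  · rw [show z + (v + q₁ - z) - v = q₁ by ring]; exact w1.2
  · rw [show z + (v + q₂ - z) - v = q₂ by ring]; exact h2
  · rw [show z + (v + q₂ - z) - v = q₂ by ring]; exact w2.2
  · rw [← hq]; exact h
  · rw [← hq, ← hc]; exact r.2

/-- **N22**: no centre has two ends of each type. -/
theorem Net.no_two_two (N : Net tE cE) {z v₁ v₂ q₁ q₂ : ℂ} (h1 : tE z v₁) (h2 : tE z v₂)
    (h3 : cE z q₁) (h4 : cE z q₂) (hv : v₁ ≠ v₂) (hq : q₁ ≠ q₂) : False := by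
  have w := N.rh h1 h3
  rcases N.L2 w.1 w.2 with ⟨v', hne, hv'⟩ | ⟨q', hne, hq'⟩
  · refine hne (N.swap.no_third h3 h1 h2 hv (q' := v') ?_)
    rw [show q₁ + v₁ - z = v₁ + q₁ - z by ring]
    exact hv'
  · exact hne (N.no_third h1 h3 h4 hq hq')

/-- the middle centre of a `T`-vertex -/
theorem Net.exists_middle (N : Net tE cE) {z v q : ℂ} (hv : tE z v) (hq : cE z q) :
    ∃ M q', q ≠ q' ∧ tE M v ∧ cE M q ∧ cE M q' := by
  rcases N.L2 hv hq with ⟨v₁, n1, s1⟩ | ⟨q', n1, s1⟩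
  · have w := N.rh hv hq
    rcases N.L2 w.1 w.2 with ⟨v₂, n2, s2⟩ | ⟨q', n2, s2⟩
    · exfalso
      -- `q` would have three neighbours
      refine n2 (N.swap.no_third (z := z) (v := q) (q₁ := v) (q₂ := v₁) hq hv s1 n1.symm ?_)
      rw [show q + v - z = v + q - z by ring]
      exact s2
    · exact ⟨v + q - z, q', n2.symm, w.1, w.2, s2⟩
  · exact ⟨z, q', n1.symm, hv, hq, s1⟩

/-- description of the centres at a vertex: `M` is the middle centre, `v + q - M` sees only `q`,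
and has a second `T`-end -/
theorem Net.side (N : Net tE cE) {M v q q' : ℂ} (hv : tE M v) (hq : cE M q) (hq' : cE M q')
    (hne : q ≠ q') : (∀ p, cE (v + q - M) p → p = q) ∧
      ∃ v', v' ≠ v ∧ tE (v + q - M) v' ∧ ∀ p, tE (v + q - M) p → p = v ∨ p = v' := by
  have w := N.rh hv hq
  have h1 : ∀ p, cE (v + q - M) p → p = q := fun p hp => N.no_third hv hq hq' hne hp
  refine ⟨h1, ?_⟩
  rcases N.L2 w.1 w.2 with ⟨v', n', s'⟩ | ⟨p, n', s'⟩
  · refine ⟨v', n', s', fun p hp => ?_⟩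
    rcases N.card_t w.2 hp w.1 s' with h | h | h
    · exact Or.inl h
    · exact Or.inr h
    · exact absurd h.symm n'
  · exact absurd (h1 p s') n'

/-- the only `T`-end of a middle centre -/
theorem Net.middle_uniq (N : Net tE cE) {M v q q' : ℂ} (hv : tE M v) (hq : cE M q)
    (hq' : cE M q') (hne : q ≠ q') : (∀ p, tE M p → p = v) ∧ ∀ p, cE M p → p = q ∨ p = q' := by
  refine ⟨fun p hp => ?_, fun p hp => ?_⟩
  · by_contra h
    exact N.no_two_two hp hv hq hq' h hne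
  · rcases N.card_c hv hp hq hq' with h | h | h
    · exact Or.inl h
    · exact Or.inr h
    · exact absurd h hne

/-- positions at a vertex: the direction of the middle centre is between the directions of the
two side centres -/
theorem Net.between (N : Net tE cE) {M v q q' : ℂ} (hv : tE M v) (hq : cE M q)
    (hq' : cE M q') (hne : q ≠ q') : ∃ β γ : ℝ, 0 < β ∧ 0 < γ ∧
      M - v = (β : ℂ) * ((v + q - M) - v) + (γ : ℂ) * ((v + q' - M) - v) := by
  obtain ⟨o1, o2⟩ := N.middle_uniq hv hq hq' hne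
  obtain ⟨α, β, γ, hα, hβ, hγ, h⟩ := N.L3 hv hq hq' hne o1 o2
  refine ⟨β / α, γ / α, by positivity, by positivity, ?_⟩
  have hα' : (α : ℂ) ≠ 0 := by exact_mod_cast hα.ne'
  push_cast
  field_simp
  linear_combination -h

/-- the second `T`-end `v'` of the side centre `N = v + q - M` is on the same side of the line
through `v` and `M` as `N` -/
theorem Net.side_pos (N : Net tE cE) {M v q q' v' : ℂ} (hv : tE M v) (hq : cE M q)
    (hq' : cE M q') (hne : q ≠ q') (hv' : tE (v + q - M) v') (hn : v' ≠ v) :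
    ∃ a b : ℝ, 0 < a ∧ 0 < b ∧
      v' - v = (a : ℂ) * ((v + q - M) - v) - (b : ℂ) * (M - v) := by
  obtain ⟨h1, v₁, n1, s1, h2⟩ := N.side hv hq hq' hne
  have hvv : v' = v₁ := by
    rcases h2 v' hv' with h | h
    · exact absurd h hn
    · exact h
  subst hvv
  have w := N.rh hv hq
  obtain ⟨α, β, γ, hα, hβ, hγ, h⟩ := N.L3' w.2 w.1 hv' hn.symm h1 h2
  refine ⟨(β + γ) / γ, α / γ, by positivity, by positivity, ?_⟩
  have hγ' : (γ : ℂ) ≠ 0 := by exact_mod_cast hγ.ne'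
  push_cast
  field_simp
  linear_combination h

/-- the two second `T`-ends are strictly on different sides of the line through `v` and `M`;
in particular they are different -/
theorem Net.sides (N : Net tE cE) {M v q q' v₁ v₂ : ℂ} (hv : tE M v) (hq : cE M q)
    (hq' : cE M q') (hne : q ≠ q') (s1 : tE (v + q - M) v₁) (n1 : v₁ ≠ v)
    (s2 : tE (v + q' - M) v₂) (n2 : v₂ ≠ v) :
    dt (M - v) (v₁ - v) * dt (M - v) (v₂ - v) < 0 := by
  obtain ⟨β, γ, hβ, hγ, h⟩ := N.between hv hq hq' hne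
  obtain ⟨a, b, ha, hb, h1⟩ := N.side_pos hv hq hq' hne s1 n1
  obtain ⟨a', b', ha', hb', h2⟩ := N.side_pos hv hq' hq hne.symm s2 n2
  have e0 : dt (M - v) (v + q - M - v) ≠ 0 := by
    have := N.dt_ne hv hq
    intro hcon
    apply this
    rw [show v - M = -(M - v) by ring, show q - M = v + q - M - v by ring, dt_neg_left, hcon,
      neg_zero]
  have e1 : dt (M - v) (v₁ - v) = a * dt (M - v) (v + q - M - v) := by
    have hh : (1 : ℝ) * (v₁ - v) + ((-a : ℝ) : ℂ) * ((v + q - M) - v) + (b : ℂ) * (M - v) = 0 := by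
      rw [h1]; push_cast; ring
    have := dt_lin (M - v) hh
    rw [dt_self] at this
    linarith
  have e2 : dt (M - v) (v₂ - v) = a' * dt (M - v) (v + q' - M - v) := by
    have hh : (1 : ℝ) * (v₂ - v) + ((-a' : ℝ) : ℂ) * ((v + q' - M) - v) + (b' : ℂ) * (M - v) = 0 := by
      rw [h2]; push_cast; ring
    have := dt_lin (M - v) hh
    rw [dt_self] at this
    linarith
  have e3 : β * dt (M - v) (v + q - M - v) + γ * dt (M - v) (v + q' - M - v) = 0 := by
    have hh : (1 : ℝ) * (M - v) + ((-β : ℝ) : ℂ) * ((v + q - M) - v) +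
        ((-γ : ℝ) : ℂ) * ((v + q' - M) - v) = 0 := by
      rw [show ((1 : ℝ) : ℂ) * (M - v) = (β : ℂ) * ((v + q - M) - v) +
        (γ : ℂ) * ((v + q' - M) - v) by rw [← h]; push_cast; ring]
      push_cast; ring
    have := dt_lin (M - v) hh
    rw [dt_self] at this
    linarith
  rw [e1, e2]
  set X := dt (M - v) (v + q - M - v)
  set Y := dt (M - v) (v + q' - M - v)
  have hY : Y = -(β / γ) * X := by field_simp; linarith
  rw [hY]
  have : a * X * (a' * (-(β / γ) * X)) = -(a * a' * (β / γ) * X ^ 2) := by ring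
  rw [this, neg_lt_zero]
  have hX : 0 < X ^ 2 := by positivity
  positivity

/-- **FLIP**: three edges at a vertex, perpendicular to the directions of the centres and not in
an open half plane; `g` strictly between `n` and `n'` -/
theorem flip {g n n' : ℂ} {o o₁ o₂ : ℝ} (ho : o = 1 ∨ o = -1) (ho1 : o₁ = 1 ∨ o₁ = -1)
    (ho2 : o₂ = 1 ∨ o₂ = -1) (hnn : dt n n' ≠ 0) {β γ : ℝ} (hβ : 0 < β) (hγ : 0 < γ)
    (hg : g = (β : ℂ) * n + (γ : ℂ) * n')
    (hbal : ∃ a b c : ℝ, 0 ≤ a ∧ 0 ≤ b ∧ 0 ≤ c ∧ 0 < a + b + c ∧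
      (a : ℂ) * (o * (I * g)) + (b : ℂ) * (o₁ * (I * n)) + (c : ℂ) * (o₂ * (I * n')) = 0) :
    o₁ = -o ∧ o₂ = -o := by
  obtain ⟨a, b, c, ha, hb, hc, habc, h⟩ := hbal
  have h1 : ((a * o * β + b * o₁ : ℝ) : ℂ) * n + ((a * o * γ + c * o₂ : ℝ) : ℂ) * n' +
      ((0 : ℝ) : ℂ) * 0 = 0 := by
    have hI : (I : ℂ) ≠ 0 := I_ne_zero
    rw [hg] at h
    have : I * (((a * o * β + b * o₁ : ℝ) : ℂ) * n + ((a * o * γ + c * o₂ : ℝ) : ℂ) * n') = 0 := by
      push_cast
      linear_combination h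
    rcases mul_eq_zero.1 this with h' | h'
    · exact absurd h' hI
    · rw [h']; simp
  have h2 := dt_lin n h1
  have h3 := dt_lin n' h1
  rw [dt_self] at h2 h3
  rw [dt_comm n n'] at h3
  have e1 : a * o * γ + c * o₂ = 0 := by
    have : (a * o * γ + c * o₂) * dt n n' = 0 := by linarith [h2]
    rcases mul_eq_zero.1 this with h' | h'
    · exact h'
    · exact absurd h' hnn
  have e2 : a * o * β + b * o₁ = 0 := by
    have : (a * o * β + b * o₁) * dt n n' = 0 := by linarith [h3]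
    rcases mul_eq_zero.1 this with h' | h'
    · exact h'
    · exact absurd h' hnn
  have hapos : 0 < a := by
    rcases ha.lt_or_eq with h' | h'
    · exact h'
    · exfalso
      rw [← h'] at e1 e2 habc
      have hc0 : c = 0 := by
        rcases ho2 with h'' | h'' <;> rw [h''] at e1 <;> linarith
      have hb0 : b = 0 := by
        rcases ho1 with h'' | h'' <;> rw [h''] at e2 <;> linarith
      linarith
  have haβ := mul_pos hapos hβ
  have haγ := mul_pos hapos hγ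
  clear h h1 h2 h3
  constructor
  · rcases ho with rfl | rfl <;> rcases ho1 with rfl | rfl
    · exfalso; linarith
    · rfl
    · norm_num
    · exfalso; linarith
  · rcases ho with rfl | rfl <;> rcases ho2 with rfl | rfl
    · exfalso; linarith
    · rfl
    · norm_num
    · exfalso; linarith

end Vale.Agent.P032.Net.H672
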