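import Vale.Agent.P032.Net.H672.End

/-!
# P032: there is no network of two-pair centres (394's page (4), abstract form)
-/

open Complex Set

set_option linter.dupNamespace false

namespace Vale.Agent.P032.Net.H672

/-- dot product of two vectors -/
def dot (x y : ℂ) : ℝ := x.re * y.re + x.im * y.im

theorem norm_sq_dot (x : ℂ) : ‖x‖ ^ 2 = dot x x := by
  rw [← Complex.normSq_eq_norm_sq, Complex.normSq_apply]; rfl

theorem lagrange (a x y : ℂ) : dot a a * dt x y = dot a x * dt a y - dt a x * dot a y := by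
  unfold dot dt; ring

theorem dot_dt (a x : ℂ) : dot a x ^ 2 + dt a x ^ 2 = dot a a * dot x x := by
  unfold dot dt; ring

/-- four unit vectors `V`, `V'`, `Q`, `R` with short chords `V V'` and `Q R` -/
theorem norm_lt_two {V V' Q R : ℂ} (hV : ‖V‖ = 1) (hV' : ‖V'‖ = 1) (hQ : ‖Q‖ = 1)
    (hR : ‖R‖ = 1) (h1 : ‖V - V'‖ ≤ 1) (h2 : ‖Q - R‖ ≤ 1) (d1 : dt V Q ≠ 0) (d2 : dt V R ≠ 0) :
    ‖(V - V') + (Q - R)‖ < 2 := by
  by_contra hcon
  push Not at hcon
  set a := V - V' with ha
  set b := Q - R with hb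
  have e1 : dot (a + b) (a + b) + dot (a - b) (a - b) = 2 * dot a a + 2 * dot b b := by
    unfold dot
    simp only [add_re, add_im, sub_re, sub_im]
    ring
  have e2 : dot a a ≤ 1 := by
    rw [← norm_sq_dot]; nlinarith [norm_nonneg a]
  have e3 : dot b b ≤ 1 := by
    rw [← norm_sq_dot]; nlinarith [norm_nonneg b]
  have e4 : 4 ≤ dot (a + b) (a + b) := by
    rw [← norm_sq_dot]; nlinarith [norm_nonneg (a + b)]
  have e5 : 0 ≤ dot (a - b) (a - b) := by rw [← norm_sq_dot]; positivity
  have e6 : dot (a - b) (a - b) = 0 := by linarith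
  have e7 : a = b := by
    rw [← norm_sq_dot] at e6
    have := pow_eq_zero_iff (two_ne_zero) |>.1 e6
    exact sub_eq_zero.1 (norm_eq_zero.1 this)
  have e8 : dot a a = 1 := by
    have : dot b b = dot a a := by rw [e7]
    linarith
  have hV2 : dot V V = 1 := by rw [← norm_sq_dot, hV]; norm_num
  have hV'2 : dot V' V' = 1 := by rw [← norm_sq_dot, hV']; norm_num
  have hQ2 : dot Q Q = 1 := by rw [← norm_sq_dot, hQ]; norm_num
  have hR2 : dot R R = 1 := by rw [← norm_sq_dot, hR]; norm_num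
  have f1 : dot a V = 1 / 2 := by
    have : dot V' V' = dot V V - 2 * dot a V + dot a a := by
      rw [ha]; unfold dot; simp only [sub_re, sub_im]; ring
    linarith
  have f2 : dot a Q = 1 / 2 := by
    have : dot R R = dot Q Q - 2 * dot a Q + dot a a := by
      rw [e7, hb]; unfold dot; simp only [sub_re, sub_im]; ring
    linarith
  have f3 : dot a R = -1 / 2 := by
    have : dot a R = dot a Q - dot a a := by
      have hRR : R = Q - a := by rw [e7, hb]; ring
      rw [hRR]; unfold dot; simp only [sub_re, sub_im]; ring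
    linarith
  have f4 : dt a R = dt a Q := by
    have hRR : R = Q - a := by rw [e7, hb]; ring
    rw [hRR]; unfold dt; simp only [sub_re, sub_im]; ring
  have g1 := dot_dt a V
  have g2 := dot_dt a Q
  rw [f1, e8, hV2] at g1
  rw [f2, e8, hQ2] at g2
  have g3 : (dt a V - dt a Q) * (dt a V + dt a Q) = 0 := by nlinarith
  rcases mul_eq_zero.1 g3 with g | g
  · apply d1
    have := lagrange a V Q
    rw [e8, f1, f2] at this
    linarith
  · apply d2
    have := lagrange a V R
    rw [e8, f1, f3, f4] at this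
    linarith

/-- the chord of an arc of length at most `π / 3` -/
theorem chord {V V' : ℂ} {o l : ℝ} (hV : ‖V‖ = 1) (ho : o = 1 ∨ o = -1) (h0 : 0 < l)
    (h1 : l ≤ Real.pi / 3) (h : V' = V * Complex.exp (-((o * l : ℝ) : ℂ) * I)) :
    ‖V'‖ = 1 ∧ ‖V - V'‖ ≤ 1 := by
  have e1 : -((o * l : ℝ) : ℂ) * I = ((-(o * l) : ℝ) : ℂ) * I := by push_cast; ring
  rw [e1] at h
  constructor
  · rw [h, norm_mul, hV, Complex.norm_exp_ofReal_mul_I, mul_one]
  · have e2 : V - V' = V * (1 - Complex.exp (((-(o * l) : ℝ) : ℂ) * I)) := by rw [h]; ring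
    rw [e2, norm_mul, hV, one_mul]
    have hc : 1 / 2 ≤ Real.cos l := by
      rw [← Real.cos_pi_div_three]
      exact Real.cos_le_cos_of_nonneg_of_le_pi h0.le (by linarith [Real.pi_pos]) h1
    have hcc : Real.cos (-(o * l)) = Real.cos l := by
      rw [Real.cos_neg]
      rcases ho with rfl | rfl
      · rw [one_mul]
      · rw [neg_one_mul, Real.cos_neg]
    have e3 : ‖1 - Complex.exp (((-(o * l) : ℝ) : ℂ) * I)‖ ^ 2 = 2 - 2 * Real.cos l := by
      rw [norm_sq_dot]
      unfold dot
      simp only [sub_re, sub_im, one_re, one_im, Complex.exp_ofReal_mul_I_re,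
        Complex.exp_ofReal_mul_I_im]
      rw [hcc]
      have := Real.sin_sq_add_cos_sq (-(o * l))
      rw [hcc] at this
      nlinarith
    have h3 : 0 ≤ ‖1 - Complex.exp (((-(o * l) : ℝ) : ℂ) * I)‖ := norm_nonneg _
    nlinarith

/-- the three arcs cannot close up unless all are of length `π / 3` -/
theorem closing {o s l l₁ l₂ : ℝ} (ho : o = 1 ∨ o = -1) (hs : s = 1 ∨ s = -1)
    (h0 : 0 < l) (h1 : 0 < l₁) (h2 : 0 < l₂) (k0 : l ≤ Real.pi / 3) (k1 : l₁ ≤ Real.pi / 3)
    (k2 : l₂ ≤ Real.pi / 3) (h : Real.cos (o * l + s * l₁ + s * l₂) = -1) :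
    o = s ∧ l = Real.pi / 3 ∧ l₁ = Real.pi / 3 := by
  have hpi := Real.pi_pos
  have key : ∀ t : ℝ, |t| < Real.pi → Real.cos t ≠ -1 := by
    intro t ht hc
    have := Real.cos_lt_cos_of_nonneg_of_le_pi (abs_nonneg t) le_rfl ht
    rw [Real.cos_pi, Real.cos_abs] at this
    linarith
  have h3 : Real.pi ≤ |o * l + s * l₁ + s * l₂| := by
    by_contra hcon
    push Not at hcon
    exact key _ hcon h
  rcases ho with rfl | rfl <;> rcases hs with rfl | rfl
  · rw [abs_of_pos (by linarith)] at h3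
    exact ⟨rfl, by linarith, by linarith⟩
  · exfalso
    rcases le_abs'.1 h3 with h4 | h4 <;> linarith
  · exfalso
    rcases le_abs'.1 h3 with h4 | h4 <;> linarith
  · rw [abs_of_neg (by linarith)] at h3
    exact ⟨rfl, by linarith, by linarith⟩

theorem sixth {s : ℝ} (hs : s = 1 ∨ s = -1) :
    Complex.exp (-((s * (Real.pi / 3) : ℝ) : ℂ) * I) -
      Complex.exp (-((s * (Real.pi / 3) : ℝ) : ℂ) * I) *
        Complex.exp (-((s * (Real.pi / 3) : ℝ) : ℂ) * I) = 1 := by
  have e1 : -((s * (Real.pi / 3) : ℝ) : ℂ) * I = ((-(s * (Real.pi / 3)) : ℝ) : ℂ) * I := by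
    push_cast; ring
  rw [e1]
  have h3 : Real.sqrt 3 * Real.sqrt 3 = 3 := Real.mul_self_sqrt (by norm_num)
  have hc : Real.cos (-(s * (Real.pi / 3))) = 1 / 2 := by
    rw [Real.cos_neg]
    rcases hs with rfl | rfl
    · rw [one_mul, Real.cos_pi_div_three]
    · rw [neg_one_mul, Real.cos_neg, Real.cos_pi_div_three]
  have hsin : Real.sin (-(s * (Real.pi / 3))) ^ 2 = 3 / 4 := by
    have := Real.sin_sq_add_cos_sq (-(s * (Real.pi / 3)))
    rw [hc] at this
    nlinarith
  apply Complex.ext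
  · simp only [sub_re, mul_re, Complex.exp_ofReal_mul_I_re, Complex.exp_ofReal_mul_I_im, one_re]
    rw [hc]
    nlinarith
  · simp only [sub_im, mul_im, Complex.exp_ofReal_mul_I_re, Complex.exp_ofReal_mul_I_im, one_im]
    rw [hc]
    ring

variable {T : ℂ → Set (Fin 6)} {E : ℂ → ℂ → Prop} {A : ℂ → ℂ → ℂ → Prop}
    {o : ℂ → ℂ → ℝ} {inn : ℂ → ℂ → Fin 6}

namespace DNet

variable {M v q q' : ℂ}

theorem dist_e (D : DNet T E A o inn) {z v : ℂ} (h : E z v) : ‖v - z‖ = 1 := by
  have := (D.net (T v)).dist_t (z := z) (v := v) ⟨h, rfl⟩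
  rwa [dist_eq_norm] at this

/-- **there is no centre with ends of complementary types** -/
theorem false (D : DNet T E A o inn) {z v q : ℂ} (hv : E z v) (hq : E z q)
    (hT : T q = (T v)ᶜ) : False := by
  obtain ⟨M, q', m⟩ := D.exists_mid hv hq hT
  obtain ⟨v', hv'⟩ := D.arc_ex m.fv
  obtain ⟨r, hr⟩ := D.arc_ex m.fq
  obtain ⟨r', hr'⟩ := D.arc_ex m.fq'
  obtain ⟨b, n1, n2⟩ := D.both m hv' hr hr'
  obtain ⟨a1, m1⟩ := D.mid_side m
  obtain ⟨a2, m2⟩ := D.mid_side b
  obtain ⟨x, hx⟩ := D.arc_ex m1.fv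
  obtain ⟨y, hy⟩ := D.arc_ex m2.fv
  have hall := D.far_cov m hv' hr hr'
  have pv := D.arc_pair m.fv hv'
  have pr := D.arc_pair m.fq hr
  have hne : v + q - M ≠ v' + r - M := by
    intro h
    have h4 := D.card_z m1.hv
    have : T (v + q - M) = univ := by
      ext i
      simp only [mem_univ, iff_true]
      rcases hall i with h' | h'
      · exact h'
      · rw [h]; exact h'
    rw [this, ncard_univ, Nat.card_eq_fintype_card, Fintype.card_fin] at h4
    omega
  -- orientations
  have os : o (v + q - M) q = -o M q := D.flip_q m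
  have or1 : o M r = -o M q := D.arc_ori m.fq b.fq hr
  have or2 : o (v' + r - M) r = o M q := by rw [D.flip_q b, or1, neg_neg]
  -- arcs
  obtain ⟨l, l0, l1, hl⟩ := D.arc_len m.fv hv'
  obtain ⟨l', l0', l1', hl'⟩ := D.arc_len m.fq hr
  obtain ⟨k, k0, k1, hk⟩ := D.arc_len m1.fv hx
  obtain ⟨j, j0, j1, hj⟩ := D.arc_len m2.fv hy
  obtain ⟨c1, c2⟩ := chord (D.dist_e m.hv) (D.ori m.hv) l0 l1 hl
  obtain ⟨c3, c4⟩ := chord (D.dist_e m.hq) (D.ori m.hq) l0' l1' hl'
  have d1 : dt (v - M) (q - M) ≠ 0 := (D.net (T v)).dt_ne ⟨m.hv, rfl⟩ ⟨m.hq, m.e⟩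
  have hvr : T v ∩ T M = T M \ T r := by
    rw [← pv, b.e]; ext i; simp only [mem_inter_iff, mem_compl_iff, mem_sdiff]; tauto
  have d2 : dt (v - M) (r - M) ≠ 0 := by
    intro h
    have := (D.LP2 b.fq m.fv m.fv hvr hvr).1 rfl
    rw [dt_comm (v - M) (r - M), h] at this
    simp at this
  have hd : dist (v + q - M) (v' + r - M) < 2 := by
    have := norm_lt_two (D.dist_e m.hv) c1 (D.dist_e m.hq) c3 c2 c4 d1 d2
    have e : v + q - M - (v' + r - M) = (v - M - (v' - M)) + (q - M - (r - M)) := by ring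
    rw [dist_eq_norm, e]
    exact this
  obtain ⟨p, p', hpp, hsum, e1, e2, e3, e4⟩ := two_points hne hd
  have q1 : (v + q - M) + (v' + r - M) ≠ 2 * p := by
    intro h
    apply hpp
    rw [← hsum] at h
    linear_combination -h
  have q2 : (v + q - M) + (v' + r - M) ≠ 2 * p' := by
    intro h
    apply hpp
    rw [← hsum] at h
    linear_combination h
  have hxy : x + y = (v + q - M) + (v' + r - M) := by
    rcases D.common_far m hv' hr hr' hx hy e1 e2 q1 with h | h <;>
      rcases D.common_far m hv' hr hr' hx hy e3 e4 q2 with h' | h'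
    · exact absurd (h.trans h'.symm) hpp
    · rw [← h, ← h']; exact hsum
    · rw [← h, ← h', add_comm]; exact hsum
    · exact absurd (h.trans h'.symm) hpp
  -- the closing equation
  have hV0 : v - M ≠ 0 := by
    intro h
    have := D.dist_e m.hv
    rw [h, norm_zero] at this
    norm_num at this
  rw [os] at hk
  rw [or2] at hj
  have hclose : Real.cos (o M v * l + o M q * j + o M q * k) = -1 := by
    have h1 : (v - M) * Complex.exp (((o M q * k : ℝ) : ℂ) * I) =
        -((v - M) * (Complex.exp (-((o M v * l : ℝ) : ℂ) * I) *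
          Complex.exp (-((o M q * j : ℝ) : ℂ) * I))) := by
      have h2 : x - (v + q - M) = -(y - (v' + r - M)) := by linear_combination hxy
      rw [hk, hj, show q - (v + q - M) = -(v - M) by ring,
        show r - (v' + r - M) = -(v' - M) by ring, hl] at h2
      have h3 : -((-(o M q) * k : ℝ) : ℂ) * I = ((o M q * k : ℝ) : ℂ) * I := by
        push_cast; ring
      rw [h3] at h2
      linear_combination -h2
    have h4 : Complex.exp (((o M q * k : ℝ) : ℂ) * I) =
        -(Complex.exp (-((o M v * l : ℝ) : ℂ) * I) *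
          Complex.exp (-((o M q * j : ℝ) : ℂ) * I)) := by
      apply mul_left_cancel₀ hV0
      rw [h1]; ring
    have h5 : Complex.exp (((o M v * l + o M q * j + o M q * k : ℝ) : ℂ) * I) = -1 := by
      have h6 : ((o M v * l + o M q * j + o M q * k : ℝ) : ℂ) * I =
          ((o M v * l : ℝ) : ℂ) * I + (((o M q * j : ℝ) : ℂ) * I +
            ((o M q * k : ℝ) : ℂ) * I) := by push_cast; ring
      rw [h6, Complex.exp_add, Complex.exp_add, h4]
      have h7 : Complex.exp (((o M v * l : ℝ) : ℂ) * I) *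
          Complex.exp (-((o M v * l : ℝ) : ℂ) * I) = 1 := by
        rw [← Complex.exp_add, neg_mul, add_neg_cancel, Complex.exp_zero]
      have h8 : Complex.exp (((o M q * j : ℝ) : ℂ) * I) *
          Complex.exp (-((o M q * j : ℝ) : ℂ) * I) = 1 := by
        rw [← Complex.exp_add, neg_mul, add_neg_cancel, Complex.exp_zero]
      linear_combination (-(Complex.exp (((o M q * j : ℝ) : ℂ) * I) *
          Complex.exp (-((o M q * j : ℝ) : ℂ) * I))) * h7 - h8
    have := congrArg Complex.re h5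
    rw [Complex.exp_ofReal_mul_I_re] at this
    simpa using this
  obtain ⟨t1, t2, t3⟩ := closing (D.ori m.hv) (D.ori m.hq) l0 j0 k0 l1 j1 k1 hclose
  -- the tie
  have hyv : y = v + r - M := by
    rw [t1, t2] at hl
    rw [t3, show r - (v' + r - M) = -(v' - M) by ring, hl] at hj
    have hs := sixth (D.ori m.hq)
    linear_combination hj + hl + (v - M) * hs
  obtain ⟨e, hev, heM⟩ := exists_out (D.card_v m.hv) (D.card_i m.hv)
  have hew' : e ∈ T (v' + r - M) := (D.cov' b e).resolve_left heM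
  have hTv' : T v' = (T v ∩ T M) ∪ ((T v)ᶜ \ T M) :=
    type_swap (D.card_v m.hv) (D.card_v b.hv) (D.card_i m.hv)
      (by rw [← m.e]; exact D.card_i m.hq) pv n1
  have her : e ∈ T r := by
    rw [b.e, hTv']
    rintro (h | h)
    · exact heM h.2
    · exact h.1 hev
  obtain ⟨t, htr, ht⟩ : ∃ t, t ∈ T r ∧ ∀ i ∈ T r ∩ T (v' + r - M), i = e ∨ i = t := by
    obtain ⟨c, c', hcc, hS⟩ := ncard_eq_two.1 (D.card_i m2.hv)
    have he : e ∈ T r ∩ T (v' + r - M) := ⟨her, hew'⟩
    have hc : c ∈ T r ∩ T (v' + r - M) := by rw [hS]; simp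
    have hc' : c' ∈ T r ∩ T (v' + r - M) := by rw [hS]; simp
    have he2 := he
    rw [hS] at he2
    simp only [mem_insert_iff, mem_singleton_iff] at he2
    rcases he2 with he2 | he2
    · refine ⟨c', hc'.1, fun i hi => ?_⟩
      rw [hS] at hi
      simp only [mem_insert_iff, mem_singleton_iff] at hi
      rcases hi with hi | hi
      · left; rw [hi, he2]
      · right; exact hi
    · refine ⟨c, hc.1, fun i hi => ?_⟩
      rw [hS] at hi
      simp only [mem_insert_iff, mem_singleton_iff] at hi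
      rcases hi with hi | hi
      · right; exact hi
      · left; rw [hi, he2]
  have hyn : T y ≠ T r := by
    obtain ⟨s, hs⟩ := D.arc_ex m2.fq
    obtain ⟨s', hs'⟩ := D.arc_ex m2.fq'
    exact (D.both m2 hy hs hs').2.1
  have hTy : T y ⊆ insert t (T v) := by
    have hcc : ((T r)ᶜ ∩ T (v' + r - M)).ncard = 2 := by
      rw [b.e, compl_compl]; exact D.card_i m2.hq
    rw [type_swap (D.card_v b.hq) (D.card_v (D.arc_end m2.fv hy)) (D.card_i m2.hv) hcc
      (D.arc_pair m2.fv hy) hyn]
    rintro i (hi | hi)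
    · rcases ht i hi with h | h
      · rw [h]; exact Or.inr hev
      · rw [h]; exact Or.inl rfl
    · right
      have h1 : i ∈ T v' := by
        have := hi.1
        rw [b.e, compl_compl] at this
        exact this
      have h2 : i ∈ T M := (D.cov' b i).resolve_right hi.2
      exact (pv.subset ⟨h1, h2⟩).1
  have hd1 : dist y v = 1 := by
    rw [dist_eq_norm, hyv, show v + r - M - v = r - M by ring]
    exact D.dist_e b.hq
  have hd2 : dist y r = 1 := by
    rw [dist_eq_norm, hyv, show v + r - M - r = v - M by ring]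
    exact D.dist_e m.hv
  rcases D.lemX m.hv hd1 hd2 htr hTy with h | h
  · apply d2
    rw [h, dt_self]
  · apply d2
    have : r - M = -(v - M) := by rw [hyv] at h; linear_combination -h
    rw [this, dt_neg_right, dt_self, neg_zero]

end DNet

end Vale.Agent.P032.Net.H672
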